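import Vale.Agent.P117.Defs

/-! The half-wave evolution in three space dimensions. -/

namespace Vale.Agent.P106

open MeasureTheory FourierTransform Vale.Agent.P117

/-- the half-wave evolution at time `t` -/
noncomputable def Uw (f : E3 → ℂ) (t : ℝ) (x : E3) : ℂ :=
  ∫ ξ : E3, Complex.exp (2 * Real.pi * Complex.I * ((inner ℝ x ξ + t * ‖ξ‖ : ℝ) : ℂ)) * 𝓕 f ξ

end Vale.Agent.P106
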