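import Vale.Agent.P106.Defs

/-! The Bessel potential. -/

namespace Vale.Agent.P106

open MeasureTheory FourierTransform Vale.Agent.P117

/-- the operator `(1 - Δ) ^ (α / 2)` -/
noncomputable def J (α : ℝ) (f : E3 → ℂ) (x : E3) : ℂ :=
  ∫ ξ : E3, Complex.exp (2 * Real.pi * Complex.I * ((inner ℝ x ξ : ℝ) : ℂ)) *
    ((((1 + 4 * Real.pi ^ 2 * ‖ξ‖ ^ 2) ^ (α / 2) : ℝ) : ℂ) * 𝓕 f ξ)

end Vale.Agent.P106
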