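import Vale.Agent.P106.Stm

namespace Vale.Agent.P106

open MeasureTheory FourierTransform Set Vale.Agent.P117
open scoped ENNReal

theorem Fin1_box (l : ℝ) (hl : 1 ≤ l) (g : Fin 3 → SchwartzMap ℝ ℂ)
    (b0 : ∀ y, l ^ (3 / 4 : ℝ) < |y| → 𝓕 (g 0 : ℝ → ℂ) y = 0)
    (b1 : ∀ y, l ^ (3 / 4 : ℝ) < |y| → 𝓕 (g 1 : ℝ → ℂ) y = 0)
    (b2 : ∀ y, y ∉ Icc l (l + √l) → 𝓕 (g 2 : ℝ → ℂ) y = 0) :
    1 ≤ l ^ (1 / 4 : ℝ) ∧ Box g (l ^ (1 / 4 : ℝ)) := by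
  have h0 : 0 ≤ l := by linarith
  have e : ∀ n : ℕ, (l ^ (1 / 4 : ℝ)) ^ n = l ^ ((n : ℝ) / 4) := fun n => by
    rw [← Real.rpow_natCast, ← Real.rpow_mul h0]
    congr 1
    ring
  have e3 : (l ^ (1 / 4 : ℝ)) ^ 3 = l ^ (3 / 4 : ℝ) := by rw [e]; norm_num
  have e4 : (l ^ (1 / 4 : ℝ)) ^ 4 = l := by rw [e]; norm_num
  have e2 : (l ^ (1 / 4 : ℝ)) ^ 2 = √l := by rw [e, Real.sqrt_eq_rpow]; norm_num
  refine ⟨Real.one_le_rpow hl (by norm_num), ?_, ?_, ?_⟩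
  · rw [e3]; exact b0
  · rw [e3]; exact b1
  · rw [e4, e2]; exact b2

theorem Fin1_ten (h_lprod : S_lprod) (p : ℝ) (hp0 : 0 < p) (g : Fin 3 → SchwartzMap ℝ ℂ) :
    N p (g 0) * N p (g 1) * N p (g 2) = ∫⁻ x, ‖tens g x‖ₑ ^ p := by
  rw [← Fin.prod_univ_three (fun j => N p (g j))]
  simp only [N]
  rw [← h_lprod (fun j y => ‖g j y‖ₑ ^ p)
    (fun j => (g j).continuous.measurable.enorm.pow_const p)]
  refine lintegral_congr fun x => ?_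
  simp only [tens, Fin.prod_univ_three, enorm_mul, ENNReal.mul_rpow_of_nonneg _ _ hp0.le]

theorem Fin1_lp (p : ℝ) (hp0 : 0 < p) (u : ℝ → E3 → ℂ) (f : E3 → ℂ) (C B : ℝ≥0∞)
    (h : ∫⁻ t in Icc (1 : ℝ) 2, ∫⁻ x, ‖u t x‖ₑ ^ p ≤ C * B ^ p * ∫⁻ x, ‖f x‖ₑ ^ p) :
    eLpNorm (fun z : ℝ × E3 => u z.1 z.2) (ENNReal.ofReal p)
      ((volume.restrict (Icc (1 : ℝ) 2)).prod volume) ≤
      C ^ (1 / p) * B * eLpNorm f (ENNReal.ofReal p) volume := by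
  have hi : 0 ≤ 1 / p := by positivity
  have e0 : ENNReal.ofReal p ≠ 0 := by simpa using hp0
  have eB : B = (B ^ p) ^ (1 / p) := by
    rw [← ENNReal.rpow_mul, mul_one_div_cancel hp0.ne', ENNReal.rpow_one]
  rw [eLpNorm_eq_lintegral_rpow_enorm_toReal e0 ENNReal.ofReal_ne_top,
    eLpNorm_eq_lintegral_rpow_enorm_toReal e0 ENNReal.ofReal_ne_top,
    ENNReal.toReal_ofReal hp0.le, eB, ← ENNReal.mul_rpow_of_nonneg _ _ hi,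
    ← ENNReal.mul_rpow_of_nonneg _ _ hi]
  exact ENNReal.rpow_le_rpow ((lintegral_prod_le _).trans h) hi

theorem fin1 (h_lprod : S_lprod) (hG : Goal) (p α : ℝ) (h2 : 2 < p) (h3 : p ≤ 3) (hα : 0 < α) :
    ∃ C : NNReal, ∀ l : ℝ, 1 ≤ l → ∀ g : Fin 3 → SchwartzMap ℝ ℂ,
      (∀ y, l ^ (3 / 4 : ℝ) < |y| → 𝓕 (g 0 : ℝ → ℂ) y = 0) →
      (∀ y, l ^ (3 / 4 : ℝ) < |y| → 𝓕 (g 1 : ℝ → ℂ) y = 0) →
      (∀ y, y ∉ Icc l (l + √l) → 𝓕 (g 2 : ℝ → ℂ) y = 0) →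
      eLpNorm (fun z : ℝ × E3 => Uw (tens g) z.1 z.2) (ENNReal.ofReal p)
        ((volume.restrict (Icc (1 : ℝ) 2)).prod volume) ≤
        C * ENNReal.ofReal (l ^ α) * eLpNorm (tens g) (ENNReal.ofReal p) volume := by
  have hp0 : 0 < p := by linarith
  obtain ⟨C, hC, h⟩ := hG (min α 1) p (lt_min hα one_pos) (min_le_right _ _) h2 h3
  refine ⟨(C ^ (1 / p)).toNNReal, fun l hl g b0 b1 b2 => ?_⟩
  obtain ⟨hμ, hB⟩ := Fin1_box l hl g b0 b1 b2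
  rw [ENNReal.coe_toNNReal (ENNReal.rpow_ne_top_of_nonneg (by positivity) hC)]
  refine Fin1_lp p hp0 _ _ _ _ ((h _ g hμ hB).trans ?_)
  rw [Fin1_ten h_lprod p hp0]
  refine mul_le_mul_left (mul_le_mul_right ?_ _) _
  have h0 : 0 ≤ l := by linarith
  rw [ENNReal.ofReal_rpow_of_nonneg (by positivity) hp0.le, ← Real.rpow_mul h0,
    ← Real.rpow_mul h0]
  refine ENNReal.ofReal_le_ofReal (Real.rpow_le_rpow_of_exponent_le hl ?_)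
  have := min_le_left α 1
  nlinarith

end Vale.Agent.P106
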