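import Vale.Agent.P106.Stm

/-! Assembly of the local smoothing estimate. -/

namespace Vale.Agent.P106

open MeasureTheory FourierTransform Set Vale.Agent.P117
open scoped ENNReal

theorem LGoal_one (hs : L_sc) {p : ℝ} {C : ℝ≥0∞}
    (hC : ∀ g : ℝ → ℂ, Good g → (∀ y, 1 < |y| → 𝓕 g y = 0) → ∃ G, Rel g G 0 1 ∧ N p G ≤ C * N p g)
    (g : SchwartzMap ℝ ℂ) (a r : ℝ) (hr : 0 < r)
    (h0 : ∀ y : ℝ, 1 < |y| → 𝓕 (g : ℝ → ℂ) (a + r * y) = 0) :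
    ∃ G, Rel g G a r ∧ N p G ≤ C * (ENNReal.ofReal r * N p g) := by
  obtain ⟨h, h1, h2, h3⟩ := hs g a r p hr
  obtain ⟨G, ⟨g1, g2⟩, g3⟩ := hC h h1 fun y hy => by rw [h2, h0 y hy, mul_zero]
  refine ⟨G, ⟨g1, fun y => ?_⟩, by rwa [h3] at g3⟩
  rw [← g2 y, ← h2, zero_add, one_mul, Complex.ofReal_one, one_mul]

theorem l_goal (hu : L_und) (hs : L_sc) (hr : L_rep) (hm : L_main) : Goal := by
  intro η p h0 h1 h2 h3
  have p0 : 0 ≤ p := by linarith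
  obtain ⟨A, A1, hA⟩ := hu p (by linarith)
  obtain ⟨B, B1, hB⟩ := hr
  obtain ⟨C, C1, hC⟩ := hm η p h0 h1 h2 h3
  have Bp : B ^ p ≠ ⊤ := ENNReal.rpow_ne_top_of_nonneg p0 B1
  refine ⟨B ^ p * C * (A * A * A), ENNReal.mul_ne_top (ENNReal.mul_ne_top Bp C1)
    (ENNReal.mul_ne_top (ENNReal.mul_ne_top A1 A1) A1), fun μ g hμ hb => ?_⟩
  have m0 : 0 < μ := by linarith
  have m3 : 0 < μ ^ 3 := by positivity
  have m2 : 0 < μ ^ 2 := by positivity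
  have k3 : ∀ y : ℝ, 1 < |y| → μ ^ 3 < |0 + μ ^ 3 * y| := fun y hy => by
    rw [zero_add, abs_mul, abs_of_pos m3]
    exact lt_mul_of_one_lt_right m3 hy
  have k2 : ∀ y : ℝ, 1 < |y| → μ ^ 4 + μ ^ 2 * y ∉ Icc (μ ^ 4) (μ ^ 4 + μ ^ 2) := fun y hy hm => by
    have a1 : 0 ≤ μ ^ 2 * y := by linarith [hm.1]
    have a2 : μ ^ 2 * y ≤ μ ^ 2 * 1 := by linarith [hm.2]
    have b1 : 0 ≤ y := (mul_nonneg_iff_of_pos_left m2).1 a1
    have b2 : y ≤ 1 := le_of_mul_le_mul_left a2 m2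
    rw [abs_of_nonneg b1] at hy
    linarith
  obtain ⟨G0, r0, n0⟩ := LGoal_one hs hA (g 0) 0 (μ ^ 3) m3 fun y hy => hb.1 _ (k3 y hy)
  obtain ⟨G1, r1, n1⟩ := LGoal_one hs hA (g 1) 0 (μ ^ 3) m3 fun y hy => hb.2.1 _ (k3 y hy)
  obtain ⟨G2, r2, n2⟩ := LGoal_one hs hA (g 2) (μ ^ 4) (μ ^ 2) m2 fun y hy => hb.2.2 _ (k2 y hy)
  have hG : ∀ j, Good (![G0, G1, G2] j) := fun j => by
    fin_cases j
    exacts [r0.1, r1.1, r2.1]
  have key := hC μ ![G0, G1, G2] hμ hG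
  have s1 : ∫⁻ t in Icc (1 : ℝ) 2, ∫⁻ x, ‖Uw (tens g) t x‖ₑ ^ p ≤ B ^ p *
      ∫⁻ t in Icc (1 : ℝ) 2, ∫⁻ x, (∫⁻ σ, wt 7 σ * FF ![G0, G1, G2] μ t σ x) ^ p := by
    rw [← lintegral_const_mul' _ _ Bp]
    refine setLIntegral_mono' measurableSet_Icc fun t ht => ?_
    rw [← lintegral_const_mul' _ _ Bp]
    refine lintegral_mono fun x => ?_
    rw [← ENNReal.mul_rpow_of_nonneg _ _ p0]
    exact ENNReal.rpow_le_rpow (hB μ t g ![G0, G1, G2] x hμ ht hb r0 r1 r2) p0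
  have e8 : ENNReal.ofReal (μ ^ 8) =
      ENNReal.ofReal (μ ^ 3) * ENNReal.ofReal (μ ^ 3) * ENNReal.ofReal (μ ^ 2) := by
    rw [← ENNReal.ofReal_mul m3.le, ← ENNReal.ofReal_mul (by positivity)]
    congr 1
    ring
  have s2 : N p G0 * N p G1 * N p G2 ≤
      ENNReal.ofReal (μ ^ 8) * (A * A * A * (N p (g 0) * N p (g 1) * N p (g 2))) := by
    refine (mul_le_mul' (mul_le_mul' n0 n1) n2).trans (le_of_eq ?_)
    rw [e8]
    ring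
  have s3 : ∫⁻ t in Icc (1 : ℝ) 2, ∫⁻ x, (∫⁻ σ, wt 7 σ * FF ![G0, G1, G2] μ t σ x) ^ p ≤
      C * ENNReal.ofReal (μ ^ (2 * η)) * (A * A * A * (N p (g 0) * N p (g 1) * N p (g 2))) := by
    refine (ENNReal.mul_le_mul_iff_right (a := ENNReal.ofReal (μ ^ 8))
      (ENNReal.ofReal_pos.2 (by positivity)).ne' ENNReal.ofReal_ne_top).1 ?_
    refine key.trans ((mul_le_mul_right s2 _).trans (le_of_eq ?_))
    ring
  refine s1.trans ((mul_le_mul_right s3 _).trans (le_of_eq ?_))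
  ring

end Vale.Agent.P106
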