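import Vale.Agent.P106.LH
import Vale.Agent.P106.LRep
import Vale.Agent.P106.LGoal

/-! The same steps with the Bessel potential inside the multiplier. -/

namespace Vale.Agent.P106

open MeasureTheory FourierTransform Set Vale.Agent.P117
open scoped ENNReal

noncomputable def V2_b (α ε v : ℝ) : ℝ := (ε ^ 4 + 4 * Real.pi ^ 2 * (1 + ε * v)) ^ (-(α / 2))

noncomputable def V2_P (α : ℝ) (z : (ℝ × ℝ) × ℝ) : ℂ :=
  LH_P z * (V2_b α (Real.sin z.1.1 ^ 2) z.2 : ℝ)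

theorem V2_sm (α : ℝ) : ContDiff ℝ 8 (V2_P α) := by
  refine contDiff_iff_contDiffAt.2 fun z => ?_
  by_cases h : -1 / 2 < z.2
  · have s0 := sq_nonneg (Real.sin z.1.1)
    have s1 := Real.sin_sq_le_one z.1.1
    have h1 : 0 < 1 + Real.sin z.1.1 ^ 2 * z.2 := by nlinarith
    have hp := Real.pi_pos
    have c1 : ContDiffAt ℝ 8 (fun z : (ℝ × ℝ) × ℝ => V2_b α (Real.sin z.1.1 ^ 2) z.2) z := by
      unfold V2_b
      exact ContDiffAt.rpow_const_of_ne (by fun_prop) (by positivity)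
    exact LH_sm.contDiffAt.mul (Complex.ofRealCLM.contDiff.contDiffAt.comp z c1)
  · refine (contDiffAt_const (c := (0 : ℂ))).congr_of_eventuallyEq ?_
    have h3 : ∀ᶠ w : (ℝ × ℝ) × ℝ in nhds z, w.2 < -1 / 4 :=
      (isOpen_lt continuous_snd continuous_const).mem_nhds (by change z.2 < -1 / 4; linarith)
    filter_upwards [h3] with w hw
    simp [V2_P, LH_P, LH_zero (Or.inl hw)]

theorem V2_H (α : ℝ) : ∃ M : ℝ, ∀ ε ∈ Icc (0 : ℝ) 1, ∀ t ∈ Icc (1 : ℝ) 2, ∃ H : ℝ → ℂ,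
    ContDiff ℝ 8 H ∧ (∀ v, v ∉ Icc (-1 : ℝ) 6 → H v = 0) ∧
    (∀ n ≤ 8, ∀ v, ‖iteratedDeriv n H v‖ ≤ M) ∧
    ∀ v ∈ Icc (0 : ℝ) 5, H v = ex (t * GG ε v) * (V2_b α ε v : ℝ) := by
  obtain ⟨M, M0, hM⟩ := LH_bd (V2_P α) (V2_sm α) ((Icc (0 : ℝ) 2 ×ˢ Icc (1 : ℝ) 2) ×ˢ Icc (-1 : ℝ) 6)
    ((isCompact_Icc.prod isCompact_Icc).prod isCompact_Icc)
  refine ⟨M, fun ε hε t ht => ⟨fun v => V2_P α ((Real.arcsin √ε, t), v),
    (V2_sm α).comp (contDiff_const.prodMk contDiff_id), fun v hv => ?_, fun n hn v => ?_,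
    fun v hv => ?_⟩⟩
  · have h : v < -1 / 4 ∨ 23 / 4 < v := by
      by_contra k
      exact hv ⟨by linarith [not_lt.1 (not_or.1 k).1], by linarith [not_lt.1 (not_or.1 k).2]⟩
    simp [V2_P, LH_P, LH_zero h]
  · by_cases hv : v ∈ Icc (-1 : ℝ) 6
    · refine (LH_slice _ (V2_sm α) n hn _ v).trans (hM n hn _ ⟨⟨⟨?_, ?_⟩, ht⟩, hv⟩)
      · exact Real.arcsin_nonneg.2 (Real.sqrt_nonneg _)
      · linarith [Real.arcsin_le_pi_div_two √ε, Real.pi_le_four]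
    · have h : (fun v => V2_P α ((Real.arcsin √ε, t), v)) =ᶠ[nhds v] fun _ => (0 : ℂ) := by
        have ho : IsOpen {w : ℝ | w < -1 / 4 ∨ 23 / 4 < w} := isOpen_Iio.union isOpen_Ioi
        have hv' : v < -1 / 4 ∨ 23 / 4 < v := by
          by_contra k
          exact hv ⟨by linarith [not_lt.1 (not_or.1 k).1], by linarith [not_lt.1 (not_or.1 k).2]⟩
        filter_upwards [ho.mem_nhds hv'] with w hw
        simp [V2_P, LH_P, LH_zero hw]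
      rw [h.iteratedDeriv_eq n]
      simpa using M0
  · have h1 : LH_chi v = 1 := by
      refine LH_chi.one_of_mem_closedBall ?_
      change dist v (11 / 4) ≤ (11 / 4 : ℝ)
      rw [Real.dist_eq, abs_le]
      constructor <;> linarith [hv.1, hv.2]
    have h2 : Real.sin (Real.arcsin √ε) ^ 2 = ε := by
      rw [Real.sin_arcsin (by linarith [Real.sqrt_nonneg ε]) (Real.sqrt_le_one.2 hε.2),
        Real.sq_sqrt hε.1]
    simp [V2_P, LH_P, h1, h2]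

def V2_Rep (α : ℝ) : Prop := ∃ C : ℝ≥0∞, C ≠ ⊤ ∧ ∀ (μ t : ℝ) (g : Fin 3 → SchwartzMap ℝ ℂ)
  (G : Fin 3 → ℝ → ℂ) (f : E3 → ℂ) (x : E3),
  (∀ ξ, 𝓕 f ξ = (((1 + 4 * Real.pi ^ 2 * ‖ξ‖ ^ 2) ^ (-(α / 2)) : ℝ) : ℂ) * 𝓕 (tens g) ξ) →
  1 ≤ μ → t ∈ Icc (1 : ℝ) 2 → Box g μ → Rel (g 0) (G 0) 0 (μ ^ 3) →
  Rel (g 1) (G 1) 0 (μ ^ 3) → Rel (g 2) (G 2) (μ ^ 4) (μ ^ 2) →
  ‖Uw f t x‖ₑ ≤ ENNReal.ofReal ((μ ^ 8) ^ (-(α / 2))) * C * ∫⁻ σ, wt 7 σ * FF G μ t σ x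

theorem V2_rep (h_prod : S_prod) (h_iprod : S_iprod) (h_ften : S_ften) (hK : L_K)
    (h_one : L_one) (h_ph : L_ph) (α : ℝ) : V2_Rep α := by
  obtain ⟨M, hM⟩ := V2_H α
  obtain ⟨C, hC⟩ := hK M
  refine ⟨ENNReal.ofReal C, ENNReal.ofReal_ne_top, ?_⟩
  intro μ t g G f x hf hμ ht hB r0 r1 r2
  have hμ0 : 0 < μ := by linarith
  have hε : 1 / μ ^ 2 ∈ Icc (0 : ℝ) 1 :=
    ⟨by positivity, by rw [div_le_one (by positivity)]; nlinarith⟩
  obtain ⟨H, H1, H2, H3, H4⟩ := hM _ hε t ht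
  obtain ⟨K, cK, iK, bK, eK⟩ := hC H H1 H2 H3
  let A : Fin 3 → ℝ := ![0, 0, μ ^ 4]
  let R : Fin 3 → ℝ := ![μ ^ 3, μ ^ 3, μ ^ 2]
  let T : ℝ → Fin 3 → ℝ := fun σ =>
    ![-(t * μ ^ 2 / 2 + σ), -(t * μ ^ 2 / 2 + σ), -(t / 2 + σ / μ ^ 2)]
  let S : ℝ → Fin 3 → ℝ := fun σ => ![0, 0, t * μ ^ 2 + 2 * σ]
  let P : ℝ → Fin 3 → ℝ → ℂ := fun σ j y =>
    ex (-(T σ j * ((y - A j) / R j) ^ 2) + S σ j * ((y - A j) / R j) + x j * y) *
      𝓕 (g j : ℝ → ℂ) y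
  let Φ : E3 → ℝ → ℂ := fun ξ σ => K σ * ex (t * μ ^ 4) * ∏ j, P σ j (ξ j)
  have h1 : ∀ ξ : E3, Complex.exp (2 * Real.pi * Complex.I *
      ((inner ℝ x ξ + t * ‖ξ‖ : ℝ) : ℂ)) * 𝓕 f ξ =
      (((μ ^ 8) ^ (-(α / 2)) : ℝ) : ℂ) * ∫ σ : ℝ, Φ ξ σ := by
    intro ξ
    rw [hf, h_ften]
    by_cases hz : ∏ j, 𝓕 (g j : ℝ → ℂ) (ξ j) = 0
    · have : ∀ σ, Φ ξ σ = 0 := by
        intro σ
        simp only [Φ, P]
        rw [Finset.prod_mul_distrib, hz, mul_zero, mul_zero]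
      simp only [this, hz, mul_zero, integral_zero]
    · have hn : ∀ j, 𝓕 (g j : ℝ → ℂ) (ξ j) ≠ 0 := fun j h =>
        hz (Finset.prod_eq_zero (Finset.mem_univ j) h)
      obtain ⟨hv, hn2⟩ := h_ph μ t ξ hμ (not_lt.1 fun h => hn 0 (hB.1 _ h))
        (not_lt.1 fun h => hn 1 (hB.2.1 _ h)) (by_contra fun h => hn 2 (hB.2.2 _ h)) _ rfl
      set v := (ξ 0 / μ ^ 3) ^ 2 + (ξ 1 / μ ^ 3) ^ 2 + 2 * ((ξ 2 - μ ^ 4) / μ ^ 2) +
        ((ξ 2 - μ ^ 4) / μ ^ 2) ^ 2 / μ ^ 2 with hvd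
      have e : (inner ℝ x ξ : ℝ) = x 0 * ξ 0 + x 1 * ξ 1 + x 2 * ξ 2 := by
        rw [PiLp.inner_apply, Fin.sum_univ_three]
        simp [mul_comm]
      have e0 : (1 + 4 * Real.pi ^ 2 * ‖ξ‖ ^ 2) ^ (-(α / 2)) =
          (μ ^ 8) ^ (-(α / 2)) * V2_b α (1 / μ ^ 2) v := by
        have hv0 := hv.1
        rw [V2_b, ← Real.mul_rpow (by positivity) (by positivity),
          EuclideanSpace.real_norm_sq_eq, Fin.sum_univ_three, hvd]
        congr 1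
        field_simp
        ring
      have e1 : Complex.exp (2 * Real.pi * Complex.I * ((inner ℝ x ξ + t * ‖ξ‖ : ℝ) : ℂ)) =
          ex (t * GG (1 / μ ^ 2) v) *
            ex (x 0 * ξ 0 + x 1 * ξ 1 + x 2 * ξ 2 + t * μ ^ 4 + t * μ ^ 2 * v / 2) := by
        rw [← LRep_add, e, hn2, ex]
        congr 3
        ring
      have e2 : ∀ a b c d q : ℂ, a * b * (c * d * q) = c * (a * d * (b * q)) := by
        intros; ring
      rw [e1, e0, Complex.ofReal_mul, e2, ← H4 v hv, eK v, ← integral_mul_const]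
      congr 2
      funext σ
      simp only [Φ, P]
      rw [Finset.prod_mul_distrib, mul_assoc (K σ), mul_assoc (K σ), ← mul_assoc (ex (σ * v)),
        ← mul_assoc (ex (t * μ ^ 4)), Fin.prod_univ_three (fun j => ex _), ← LRep_add, ← LRep_add,
        ← LRep_add, ← LRep_add]
      congr 3
      simp only [A, R, T, S, Matrix.cons_val_zero, Matrix.cons_val_one, Matrix.cons_val_two,
        Matrix.head_cons, Matrix.tail_cons, hvd]
      field_simp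
      ring
  have hc : Continuous (Function.uncurry Φ) := by
    have a1 := fun j => rep_cont (g j)
    have a2 := LRep_cont
    have a3 : ∀ j, Continuous fun σ => T σ j := by
      intro j; fin_cases j <;> simp only [T] <;> fun_prop
    have a4 : ∀ j, Continuous fun σ => S σ j := by
      intro j; fin_cases j <;> simp only [S] <;> fun_prop
    show Continuous fun z : E3 × ℝ => Φ z.1 z.2
    refine ((cK.comp continuous_snd).mul continuous_const).mul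
      (continuous_finset_prod _ fun j _ => ?_)
    have a5 := (a3 j).comp (continuous_snd (X := E3))
    have a6 := (a4 j).comp (continuous_snd (X := E3))
    have a7 : Continuous fun z : E3 × ℝ => z.1 j := by fun_prop
    exact (a2.comp (((a5.mul (((a7.sub continuous_const).div_const _).pow 2)).neg.add
      (a6.mul ((a7.sub continuous_const).div_const _))).add (continuous_const.mul a7))).mul
      ((a1 j).comp a7)
  have hi : Integrable (Function.uncurry Φ) ((volume : Measure E3).prod volume) := by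
    refine Integrable.mono' ((h_iprod (fun j y => ‖𝓕 (g j : ℝ → ℂ) y‖)
      fun j => (rep_int (g j)).norm).mul_prod iK.norm) hc.aestronglyMeasurable
      (Filter.Eventually.of_forall fun z => ?_)
    show ‖Φ z.1 z.2‖ ≤ _
    simp only [Φ, P]
    rw [norm_mul, norm_mul, LRep_norm, mul_one, mul_comm, norm_prod]
    refine le_of_eq ?_
    congr 1
    exact Finset.prod_congr rfl fun j _ => by rw [norm_mul, LRep_norm, one_mul]
  have h2 : ∀ σ, ‖∫ ξ, Φ ξ σ‖ₑ = ‖K σ‖ₑ * FF G μ t σ x := by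
    intro σ
    simp only [Φ]
    rw [integral_const_mul, h_prod (P σ), Fin.prod_univ_three]
    have b0 : ∫ y, P σ 0 y = _ := h_one _ _ 0 (μ ^ 3) (-(t * μ ^ 2 / 2 + σ)) 0 (x 0)
      (by positivity) r0
    have b1 : ∫ y, P σ 1 y = _ := h_one _ _ 0 (μ ^ 3) (-(t * μ ^ 2 / 2 + σ)) 0 (x 1)
      (by positivity) r1
    have b2 : ∫ y, P σ 2 y = _ := h_one _ _ (μ ^ 4) (μ ^ 2) (-(t / 2 + σ / μ ^ 2))
      (t * μ ^ 2 + 2 * σ) (x 2) (by positivity) r2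
    rw [b0, b1, b2]
    simp only [enorm_mul, LRep_enorm, mul_one, one_mul, add_zero, FF]
  unfold Uw
  simp_rw [h1]
  rw [integral_const_mul, integral_integral_swap hi, enorm_mul, mul_assoc, ← ofReal_norm,
    Complex.norm_real, Real.norm_of_nonneg (by positivity)]
  refine mul_le_mul_right ?_ _
  refine (enorm_integral_le_lintegral_enorm _).trans ?_
  rw [← lintegral_const_mul' _ _ ENNReal.ofReal_ne_top]
  refine lintegral_mono fun σ => ?_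
  have h3 : ‖K σ‖ₑ ≤ ENNReal.ofReal C * wt 7 σ := by
    rw [← ofReal_norm, wt, ← ENNReal.ofReal_mul' (by positivity)]
    exact ENNReal.ofReal_le_ofReal (bK σ)
  rw [h2, ← mul_assoc]
  exact mul_le_mul_left h3 _

theorem V2_goal (hu : L_und) (hs : L_sc) (α : ℝ) (hr : V2_Rep α) (hm : L_main) (η p : ℝ)
    (h0 : 0 < η) (h1 : η ≤ 1) (hη : η ≤ α) (h2 : 2 < p) (h3 : p ≤ 3) : ∃ C : ℝ≥0∞, C ≠ ⊤ ∧
    ∀ (μ : ℝ) (g : Fin 3 → SchwartzMap ℝ ℂ) (f : E3 → ℂ),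
    (∀ ξ, 𝓕 f ξ = (((1 + 4 * Real.pi ^ 2 * ‖ξ‖ ^ 2) ^ (-(α / 2)) : ℝ) : ℂ) * 𝓕 (tens g) ξ) →
    1 ≤ μ → Box g μ → ∫⁻ t in Icc (1 : ℝ) 2, ∫⁻ x, ‖Uw f t x‖ₑ ^ p ≤
      C * (N p (g 0) * N p (g 1) * N p (g 2)) := by
  have p0 : 0 ≤ p := by linarith
  obtain ⟨A, A1, hA⟩ := hu p (by linarith)
  obtain ⟨B, B1, hB⟩ := hr
  obtain ⟨C, C1, hC⟩ := hm η p h0 h1 h2 h3
  have Bp : B ^ p ≠ ⊤ := ENNReal.rpow_ne_top_of_nonneg p0 B1
  refine ⟨B ^ p * C * (A * A * A), ENNReal.mul_ne_top (ENNReal.mul_ne_top Bp C1)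
    (ENNReal.mul_ne_top (ENNReal.mul_ne_top A1 A1) A1), fun μ g f hf hμ hb => ?_⟩
  have m0 : 0 < μ := by linarith
  have m3 : 0 < μ ^ 3 := by positivity
  have m2 : 0 < μ ^ 2 := by positivity
  have k3 : ∀ y : ℝ, 1 < |y| → μ ^ 3 < |0 + μ ^ 3 * y| := fun y hy => by
    rw [zero_add, abs_mul, abs_of_pos m3]
    exact lt_mul_of_one_lt_right m3 hy
  have k2 : ∀ y : ℝ, 1 < |y| → μ ^ 4 + μ ^ 2 * y ∉ Icc (μ ^ 4) (μ ^ 4 + μ ^ 2) := fun y hy hm => by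
    have a1 : 0 ≤ μ ^ 2 * y := by linarith [hm.1]
    have a2 : μ ^ 2 * y ≤ μ ^ 2 * 1 := by linarith [hm.2]
    have b1 : 0 ≤ y := (mul_nonneg_iff_of_pos_left m2).1 a1
    have b2 : y ≤ 1 := le_of_mul_le_mul_left a2 m2
    rw [abs_of_nonneg b1] at hy
    linarith
  obtain ⟨G0, r0, n0⟩ := LGoal_one hs hA (g 0) 0 (μ ^ 3) m3 fun y hy => hb.1 _ (k3 y hy)
  obtain ⟨G1, r1, n1⟩ := LGoal_one hs hA (g 1) 0 (μ ^ 3) m3 fun y hy => hb.2.1 _ (k3 y hy)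
  obtain ⟨G2, r2, n2⟩ := LGoal_one hs hA (g 2) (μ ^ 4) (μ ^ 2) m2 fun y hy => hb.2.2 _ (k2 y hy)
  have hG : ∀ j, Good (![G0, G1, G2] j) := fun j => by
    fin_cases j
    exacts [r0.1, r1.1, r2.1]
  have key := hC μ ![G0, G1, G2] hμ hG
  set D := ENNReal.ofReal ((μ ^ 8) ^ (-(α / 2))) with hD
  have Dp : (D * B) ^ p ≠ ⊤ :=
    ENNReal.rpow_ne_top_of_nonneg p0 (ENNReal.mul_ne_top ENNReal.ofReal_ne_top B1)
  have s0 : D ^ p * ENNReal.ofReal (μ ^ (2 * η)) ≤ 1 := by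
    rw [hD, ENNReal.ofReal_rpow_of_nonneg (by positivity) p0, ← ENNReal.ofReal_mul (by positivity),
      ENNReal.ofReal_le_one, ← Real.rpow_natCast, ← Real.rpow_mul m0.le, ← Real.rpow_mul m0.le,
      ← Real.rpow_add m0]
    refine Real.rpow_le_one_of_one_le_of_nonpos hμ ?_
    push_cast
    nlinarith
  have s1 : ∫⁻ t in Icc (1 : ℝ) 2, ∫⁻ x, ‖Uw f t x‖ₑ ^ p ≤ (D * B) ^ p *
      ∫⁻ t in Icc (1 : ℝ) 2, ∫⁻ x, (∫⁻ σ, wt 7 σ * FF ![G0, G1, G2] μ t σ x) ^ p := by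
    rw [← lintegral_const_mul' _ _ Dp]
    refine setLIntegral_mono' measurableSet_Icc fun t ht => ?_
    rw [← lintegral_const_mul' _ _ Dp]
    refine lintegral_mono fun x => ?_
    rw [← ENNReal.mul_rpow_of_nonneg _ _ p0]
    exact ENNReal.rpow_le_rpow (hB μ t g ![G0, G1, G2] f x hf hμ ht hb r0 r1 r2) p0
  have e8 : ENNReal.ofReal (μ ^ 8) =
      ENNReal.ofReal (μ ^ 3) * ENNReal.ofReal (μ ^ 3) * ENNReal.ofReal (μ ^ 2) := by
    rw [← ENNReal.ofReal_mul m3.le, ← ENNReal.ofReal_mul (by positivity)]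
    congr 1
    ring
  have s2 : N p G0 * N p G1 * N p G2 ≤
      ENNReal.ofReal (μ ^ 8) * (A * A * A * (N p (g 0) * N p (g 1) * N p (g 2))) := by
    refine (mul_le_mul' (mul_le_mul' n0 n1) n2).trans (le_of_eq ?_)
    rw [e8]
    ring
  have s3 : ∫⁻ t in Icc (1 : ℝ) 2, ∫⁻ x, (∫⁻ σ, wt 7 σ * FF ![G0, G1, G2] μ t σ x) ^ p ≤
      C * ENNReal.ofReal (μ ^ (2 * η)) * (A * A * A * (N p (g 0) * N p (g 1) * N p (g 2))) := by
    refine (ENNReal.mul_le_mul_iff_right (a := ENNReal.ofReal (μ ^ 8))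
      (ENNReal.ofReal_pos.2 (by positivity)).ne' ENNReal.ofReal_ne_top).1 ?_
    refine key.trans ((mul_le_mul_right s2 _).trans (le_of_eq ?_))
    ring
  refine s1.trans ((mul_le_mul_right s3 _).trans ?_)
  rw [ENNReal.mul_rpow_of_nonneg _ _ p0]
  calc _ = D ^ p * ENNReal.ofReal (μ ^ (2 * η)) *
        (B ^ p * C * (A * A * A) * (N p (g 0) * N p (g 1) * N p (g 2))) := by ring
    _ ≤ 1 * _ := mul_le_mul_left s0 _
    _ = _ := one_mul _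

end Vale.Agent.P106
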