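import Vale.Agent.P106.Defs2
import Vale.Agent.P106.V2
import Vale.Agent.P106.Fin1

namespace Vale.Agent.P106

open MeasureTheory FourierTransform Set Vale.Agent.P117
open scoped ENNReal

theorem Fin2_inv (h_iprod : S_iprod) (α : ℝ) (hα : α ≤ 2) (f : SchwartzMap E3 ℂ)
    (g : Fin 3 → SchwartzMap ℝ ℂ) (hJ : J α f = tens g) (ξ : E3) :
    𝓕 (f : E3 → ℂ) ξ =
      (((1 + 4 * Real.pi ^ 2 * ‖ξ‖ ^ 2) ^ (-(α / 2)) : ℝ) : ℂ) * 𝓕 (tens g) ξ := by
  let h : E3 → ℂ := fun ξ =>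
    (((1 + 4 * Real.pi ^ 2 * ‖ξ‖ ^ 2) ^ (α / 2) : ℝ) : ℂ) * 𝓕 (f : E3 → ℂ) ξ
  have c1 : Continuous (𝓕 (f : E3 → ℂ)) := by
    rw [← SchwartzMap.fourier_coe]
    exact (𝓕 f).continuous
  have c2 : Continuous fun ξ : E3 => (1 + 4 * Real.pi ^ 2 * ‖ξ‖ ^ 2) ^ (α / 2) :=
    Continuous.rpow_const (by fun_prop) fun ξ => Or.inl (by positivity)
  have hc : Continuous h := (Complex.continuous_ofReal.comp c2).mul c1
  have hi : Integrable h := by
    have i1 : Integrable fun ξ : E3 => ‖𝓕 (f : E3 → ℂ) ξ‖ := by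
      rw [← SchwartzMap.fourier_coe]
      exact (𝓕 f).integrable.norm
    have i2 : Integrable fun ξ : E3 => ‖ξ‖ ^ 2 * ‖𝓕 (f : E3 → ℂ) ξ‖ := by
      rw [← SchwartzMap.fourier_coe]
      exact (𝓕 f).integrable_pow_mul volume 2
    refine Integrable.mono' (i1.add (i2.const_mul (4 * Real.pi ^ 2))) hc.aestronglyMeasurable
      (Filter.Eventually.of_forall fun ξ => ?_)
    have b1 : 1 ≤ 1 + 4 * Real.pi ^ 2 * ‖ξ‖ ^ 2 := le_add_of_nonneg_right (by positivity)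
    have b2 : (1 + 4 * Real.pi ^ 2 * ‖ξ‖ ^ 2) ^ (α / 2) ≤ 1 + 4 * Real.pi ^ 2 * ‖ξ‖ ^ 2 :=
      (Real.rpow_le_rpow_of_exponent_le b1 (by linarith)).trans (le_of_eq (Real.rpow_one _))
    simp only [h, Pi.add_apply]
    rw [norm_mul, Complex.norm_real, Real.norm_of_nonneg (by positivity)]
    refine (mul_le_mul_of_nonneg_right b2 (norm_nonneg _)).trans (le_of_eq ?_)
    ring
  have e1 : 𝓕⁻ h = tens g := by
    rw [← hJ]
    funext x
    rw [Real.fourierInv_eq', J]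
    congr 1
    funext ξ
    rw [smul_eq_mul, real_inner_comm]
    congr 2
    push_cast
    ring
  have it : Integrable (tens g) := by
    refine Integrable.mono' (h_iprod (fun j y => ‖g j y‖) fun j => (g j).integrable.norm)
      (Continuous.aestronglyMeasurable (by unfold tens; fun_prop))
      (Filter.Eventually.of_forall fun x => le_of_eq ?_)
    rw [tens, norm_prod]
  have i3 : Integrable (𝓕 h) := by
    have : 𝓕 h = fun x => tens g (-x) := by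
      funext x
      rw [← e1, Real.fourierInv_eq_fourier_neg, neg_neg]
    rw [this]
    exact it.comp_neg
  rw [← e1, hc.fourier_fourierInv_eq hi i3]
  simp only [h]
  rw [← mul_assoc, ← Complex.ofReal_mul, ← Real.rpow_add (by positivity), neg_add_cancel,
    Real.rpow_zero, Complex.ofReal_one, one_mul]

theorem fin2 (h_lprod : S_lprod) (h_iprod : S_iprod) (hu : L_und) (hs : L_sc)
    (hr : ∀ α, V2_Rep α) (hm : L_main) (p α : ℝ) (h2 : 2 < p) (h3 : p ≤ 3) (hα : 0 < α)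
    (hα2 : α ≤ 2) :
    ∃ C : NNReal, ∀ l : ℝ, 1 ≤ l → ∀ g : Fin 3 → SchwartzMap ℝ ℂ,
      (∀ y, l ^ (3 / 4 : ℝ) < |y| → 𝓕 (g 0 : ℝ → ℂ) y = 0) →
      (∀ y, l ^ (3 / 4 : ℝ) < |y| → 𝓕 (g 1 : ℝ → ℂ) y = 0) →
      (∀ y, y ∉ Icc l (l + √l) → 𝓕 (g 2 : ℝ → ℂ) y = 0) →
      ∀ f : SchwartzMap E3 ℂ, J α f = tens g →
      eLpNorm (fun z : ℝ × E3 => Uw f z.1 z.2) (ENNReal.ofReal p)
        ((volume.restrict (Icc (1 : ℝ) 2)).prod volume) ≤
        C * eLpNorm (J α f) (ENNReal.ofReal p) volume := by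
  have hp0 : 0 < p := by linarith
  obtain ⟨C, hC, h⟩ := V2_goal hu hs α (hr α) hm (min α 1) p (lt_min hα one_pos)
    (min_le_right _ _) (min_le_left _ _) h2 h3
  refine ⟨(C ^ (1 / p)).toNNReal, fun l hl g b0 b1 b2 f hJ => ?_⟩
  obtain ⟨hμ, hB⟩ := Fin1_box l hl g b0 b1 b2
  rw [ENNReal.coe_toNNReal (ENNReal.rpow_ne_top_of_nonneg (by positivity) hC), hJ,
    ← mul_one (C ^ (1 / p))]
  refine Fin1_lp p hp0 _ _ _ _ ((h _ g f (Fin2_inv h_iprod α hα2 f g hJ) hμ hB).trans ?_)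
  rw [Fin1_ten h_lprod p hp0, ENNReal.one_rpow, mul_one]

end Vale.Agent.P106
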