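import Vale.Agent.P106.Stm

/-! A smooth cut-off of the phase, with uniform bounds. -/

namespace Vale.Agent.P106

open MeasureTheory FourierTransform Set Vale.Agent.P117
open scoped ENNReal

theorem LH_slice (P : (ℝ × ℝ) × ℝ → ℂ) (hP : ContDiff ℝ 8 P) (n : ℕ) (hn : n ≤ 8) (a : ℝ × ℝ)
    (v : ℝ) : ‖iteratedDeriv n (fun w => P (a, w)) v‖ ≤ ‖iteratedFDeriv ℝ n P (a, v)‖ := by
  have hQ : ContDiff ℝ 8 fun z : (ℝ × ℝ) × ℝ => P ((a, 0) + z) :=
    hP.comp (contDiff_const.add contDiff_id)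
  have e : (fun w => P (a, w)) =
      (fun z : (ℝ × ℝ) × ℝ => P ((a, 0) + z)) ∘ ContinuousLinearMap.inr ℝ (ℝ × ℝ) ℝ := by
    funext w
    simp
  rw [← norm_iteratedFDeriv_eq_norm_iteratedDeriv, e,
    ContinuousLinearMap.iteratedFDeriv_comp_right _ hQ v (by exact_mod_cast hn),
    iteratedFDeriv_comp_add_left]
  refine (ContinuousMultilinearMap.norm_compContinuousLinearMap_le _ _).trans ?_
  have e2 : ((a, 0) : (ℝ × ℝ) × ℝ) + ContinuousLinearMap.inr ℝ (ℝ × ℝ) ℝ v = (a, v) := by simp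
  rw [e2]
  refine mul_le_of_le_one_right (norm_nonneg _) ?_
  exact Finset.prod_le_one (fun _ _ => norm_nonneg _) fun _ _ =>
    ContinuousLinearMap.norm_inr_le_one ℝ (ℝ × ℝ) ℝ

theorem LH_bd (P : (ℝ × ℝ) × ℝ → ℂ) (hP : ContDiff ℝ 8 P) (K : Set ((ℝ × ℝ) × ℝ))
    (hK : IsCompact K) : ∃ M : ℝ, 0 ≤ M ∧ ∀ n ≤ 8, ∀ z ∈ K, ‖iteratedFDeriv ℝ n P z‖ ≤ M := by
  have h : ∀ n : Fin 9, ∃ M : ℝ, 0 ≤ M ∧ ∀ z ∈ K, ‖iteratedFDeriv ℝ n P z‖ ≤ M := by
    intro n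
    have hn : (n : ℕ) ≤ 8 := by omega
    obtain ⟨M, hM⟩ := hK.exists_bound_of_continuousOn
      (hP.continuous_iteratedFDeriv (m := n) (by exact_mod_cast hn)).continuousOn
    exact ⟨max M 0, le_max_right _ _, fun z hz => (hM z hz).trans (le_max_left _ _)⟩
  choose M h0 hM using h
  refine ⟨∑ n, M n, Finset.sum_nonneg fun n _ => h0 n, fun n hn z hz => ?_⟩
  exact (hM ⟨n, by omega⟩ z hz).trans
    (Finset.single_le_sum (fun n _ => h0 n) (Finset.mem_univ _))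

noncomputable def LH_chi : ContDiffBump (11 / 4 : ℝ) := ⟨11 / 4, 3, by norm_num, by norm_num⟩

theorem LH_zero {v : ℝ} (h : v < -1 / 4 ∨ 23 / 4 < v) : LH_chi v = 0 := by
  refine LH_chi.zero_of_le_dist ?_
  change (3 : ℝ) ≤ _
  rw [Real.dist_eq, le_abs]
  rcases h with h | h
  · right; linarith
  · left; linarith

noncomputable def LH_P (z : (ℝ × ℝ) × ℝ) : ℂ :=
  (LH_chi z.2 : ℝ) * ex (z.1.2 * GG (Real.sin z.1.1 ^ 2) z.2)

theorem LH_sm : ContDiff ℝ 8 LH_P := by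
  refine contDiff_iff_contDiffAt.2 fun z => ?_
  by_cases h : -1 / 2 < z.2
  · have s0 := sq_nonneg (Real.sin z.1.1)
    have s1 := Real.sin_sq_le_one z.1.1
    have h1 : 0 < 1 + Real.sin z.1.1 ^ 2 * z.2 := by nlinarith
    have h2 := Real.sqrt_nonneg (1 + Real.sin z.1.1 ^ 2 * z.2)
    have c0 : ContDiffAt ℝ 8 (fun z : (ℝ × ℝ) × ℝ => Real.sin z.1.1 ^ 2 * z.2) z := by fun_prop
    have c1 : ContDiffAt ℝ 8 (fun z : (ℝ × ℝ) × ℝ => GG (Real.sin z.1.1 ^ 2) z.2) z := by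
      unfold GG
      refine ContDiffAt.div (by fun_prop) ?_ (by linarith)
      exact (((contDiffAt_const.add c0).sqrt h1.ne').add contDiffAt_const).add (c0.div_const 2)
    have c2 : ContDiffAt ℝ 8
        (fun z : (ℝ × ℝ) × ℝ => ((z.1.2 * GG (Real.sin z.1.1 ^ 2) z.2 : ℝ) : ℂ)) z :=
      Complex.ofRealCLM.contDiff.contDiffAt.comp z ((by fun_prop : ContDiffAt ℝ 8
        (fun z : (ℝ × ℝ) × ℝ => z.1.2) z).mul c1)
    have c3 : ContDiffAt ℝ 8 (fun z : (ℝ × ℝ) × ℝ => ((LH_chi z.2 : ℝ) : ℂ)) z :=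
      Complex.ofRealCLM.contDiff.contDiffAt.comp z (LH_chi.contDiff.comp contDiff_snd).contDiffAt
    exact c3.mul (contDiffAt_const.mul c2).cexp
  · refine (contDiffAt_const (c := (0 : ℂ))).congr_of_eventuallyEq ?_
    have h3 : ∀ᶠ w : (ℝ × ℝ) × ℝ in nhds z, w.2 < -1 / 4 :=
      (isOpen_lt continuous_snd continuous_const).mem_nhds (by change z.2 < -1 / 4; linarith)
    filter_upwards [h3] with w hw
    simp [LH_P, LH_zero (Or.inl hw)]

theorem l_H : L_H := by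
  obtain ⟨M, M0, hM⟩ := LH_bd LH_P LH_sm ((Icc (0 : ℝ) 2 ×ˢ Icc (1 : ℝ) 2) ×ˢ Icc (-1 : ℝ) 6)
    ((isCompact_Icc.prod isCompact_Icc).prod isCompact_Icc)
  refine ⟨M, fun ε hε t ht => ⟨fun v => LH_P ((Real.arcsin √ε, t), v),
    LH_sm.comp (contDiff_const.prodMk contDiff_id), fun v hv => ?_, fun n hn v => ?_,
    fun v hv => ?_⟩⟩
  · have h : v < -1 / 4 ∨ 23 / 4 < v := by
      by_contra k
      exact hv ⟨by linarith [not_lt.1 (not_or.1 k).1], by linarith [not_lt.1 (not_or.1 k).2]⟩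
    simp [LH_P, LH_zero h]
  · by_cases hv : v ∈ Icc (-1 : ℝ) 6
    · refine (LH_slice _ LH_sm n hn _ v).trans (hM n hn _ ⟨⟨⟨?_, ?_⟩, ht⟩, hv⟩)
      · exact Real.arcsin_nonneg.2 (Real.sqrt_nonneg _)
      · linarith [Real.arcsin_le_pi_div_two √ε, Real.pi_le_four]
    · have h : (fun v => LH_P ((Real.arcsin √ε, t), v)) =ᶠ[nhds v] fun _ => (0 : ℂ) := by
        have ho : IsOpen {w : ℝ | w < -1 / 4 ∨ 23 / 4 < w} := isOpen_Iio.union isOpen_Ioi
        have hv' : v < -1 / 4 ∨ 23 / 4 < v := by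
          by_contra k
          exact hv ⟨by linarith [not_lt.1 (not_or.1 k).1], by linarith [not_lt.1 (not_or.1 k).2]⟩
        filter_upwards [ho.mem_nhds hv'] with w hw
        simp [LH_P, LH_zero hw]
      rw [h.iteratedDeriv_eq n]
      simpa using M0
  · have h1 : LH_chi v = 1 := by
      refine LH_chi.one_of_mem_closedBall ?_
      change dist v (11 / 4) ≤ (11 / 4 : ℝ)
      rw [Real.dist_eq, abs_le]
      constructor <;> linarith [hv.1, hv.2]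
    have h2 : Real.sin (Real.arcsin √ε) ^ 2 = ε := by
      rw [Real.sin_arcsin (by linarith [Real.sqrt_nonneg ε]) (Real.sqrt_le_one.2 hε.2),
        Real.sq_sqrt hε.1]
    simp [LH_P, h1, h2]

end Vale.Agent.P106
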