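import Vale.Agent.P106.Stm

/-! Decay of the Fourier transform of a smooth compactly supported function. -/

namespace Vale.Agent.P106

open MeasureTheory FourierTransform Set Vale.Agent.P117
open scoped ENNReal

theorem LK_int {f : ℝ → ℂ} {M : ℝ} (hc : Continuous f) (h0 : ∀ v, v ∉ Icc (-1 : ℝ) 6 → f v = 0)
    (hM : ∀ v, ‖f v‖ ≤ M) : Integrable f ∧ ∀ s, ‖𝓕 f s‖ ≤ 7 * M := by
  have i : Integrable f :=
    hc.integrable_of_hasCompactSupport (HasCompactSupport.intro isCompact_Icc h0)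
  refine ⟨i, fun s => (VectorFourier.norm_fourierIntegral_le_integral_norm _ _ _ _ _).trans ?_⟩
  rw [← setIntegral_eq_integral_of_forall_compl_eq_zero (s := Icc (-1 : ℝ) 6)
    fun v hv => by rw [h0 v hv, norm_zero]]
  have k := norm_setIntegral_le_of_norm_le_const (μ := volume) (s := Icc (-1 : ℝ) 6)
    (f := fun v => ‖f v‖) (C := M) measure_Icc_lt_top fun v _ => by
      rw [norm_norm]
      exact hM v
  rw [Real.volume_real_Icc_of_le (by norm_num)] at k
  exact (le_abs_self _).trans (k.trans (le_of_eq (by ring)))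

theorem LK_zero {H : ℝ → ℂ} (h0 : ∀ v, v ∉ Icc (-1 : ℝ) 6 → H v = 0) (n : ℕ) :
    ∀ v, v ∉ Icc (-1 : ℝ) 6 → iteratedDeriv n H v = 0 := fun v hv => by
  have e : H =ᶠ[nhds v] fun _ => (0 : ℂ) :=
    Filter.eventually_of_mem (isClosed_Icc.isOpen_compl.mem_nhds hv) fun w hw => h0 w hw
  rw [e.iteratedDeriv_eq]
  simp

theorem l_K : L_K := by
  intro M
  refine ⟨2 ^ 8 * (7 * M), fun H hH h0 hM => ?_⟩
  have hi : ∀ n ≤ 8, Integrable (iteratedDeriv n H) ∧ ∀ s, ‖𝓕 (iteratedDeriv n H) s‖ ≤ 7 * M :=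
    fun n hn => LK_int (hH.continuous_iteratedDeriv n (by exact_mod_cast hn)) (LK_zero h0 n)
      (hM n hn)
  have i0 := hi 0 (by norm_num)
  rw [iteratedDeriv_zero] at i0
  have cK : Continuous (𝓕 H) :=
    VectorFourier.fourierIntegral_continuous Real.continuous_fourierChar continuous_inner i0.1
  have e := Real.fourier_iteratedDeriv (N := 8) (n := 8) (f := H) hH
    (fun n hn => (hi n (by exact_mod_cast hn)).1) le_rfl
  have bd : ∀ σ : ℝ, ‖𝓕 H σ‖ ≤ 2 ^ 8 * (7 * M) * (1 + |σ|) ^ (-(1 + 7) : ℝ) := fun σ => by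
    have p : 0 < 1 + |σ| := by positivity
    have e8 : (-(1 + 7) : ℝ) = -((8 : ℕ) : ℝ) := by norm_num
    rw [e8, Real.rpow_neg p.le, Real.rpow_natCast, ← div_eq_mul_inv, le_div_iff₀ (by positivity)]
    have n0 := norm_nonneg (𝓕 H σ)
    rcases le_total |σ| 1 with h | h
    · have a : (1 + |σ|) ^ 8 ≤ 2 ^ 8 := pow_le_pow_left₀ p.le (by linarith) 8
      rw [mul_comm]
      exact mul_le_mul a (i0.2 σ) n0 (by positivity)
    · have b := (hi 8 le_rfl).2 σ
      rw [e, norm_smul, norm_pow] at b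
      have c : ‖2 * (Real.pi : ℂ) * Complex.I * σ‖ = 2 * Real.pi * |σ| := by
        simp [abs_of_pos Real.pi_pos]
      rw [c] at b
      have a : (1 + |σ|) ^ 8 ≤ (2 * (2 * Real.pi * |σ|)) ^ 8 :=
        pow_le_pow_left₀ p.le (by nlinarith [Real.pi_gt_three]) 8
      calc ‖𝓕 H σ‖ * (1 + |σ|) ^ 8 ≤ ‖𝓕 H σ‖ * (2 * (2 * Real.pi * |σ|)) ^ 8 :=
            mul_le_mul_of_nonneg_left a n0
        _ = 2 ^ 8 * ((2 * Real.pi * |σ|) ^ 8 * ‖𝓕 H σ‖) := by ring
        _ ≤ _ := mul_le_mul_of_nonneg_left b (by positivity)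
  have iK : Integrable (𝓕 H) :=
    Integrable.mono' ((integrable_one_add_norm (E := ℝ) (μ := volume) (r := 1 + 7)
      (by simp)).const_mul (2 ^ 8 * (7 * M))) cK.aestronglyMeasurable
      (Filter.Eventually.of_forall bd)
  refine ⟨𝓕 H, cK, iK, bd, fun v => ?_⟩
  have h := i0.1.fourierInv_fourier_eq iK (v := v) hH.continuous.continuousAt
  rw [Real.fourierInv_eq'] at h
  rw [← h]
  refine integral_congr_ae (Filter.Eventually.of_forall fun σ => ?_)
  have e1 : inner ℝ σ v = v * σ := by simp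
  show Complex.exp (((2 * Real.pi * inner ℝ σ v : ℝ) : ℂ) * Complex.I) • 𝓕 H σ = 𝓕 H σ * ex (σ * v)
  rw [e1, smul_eq_mul, mul_comm, ex]
  congr 2
  push_cast
  ring

end Vale.Agent.P106
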