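import Vale.Agent.P106.Stm

/-! Polynomial bound for the damped propagator. -/

namespace Vale.Agent.P106

open MeasureTheory FourierTransform Set Vale.Agent.P117
open scoped ENNReal

theorem LKn_l1 (h_knorm : S_knorm) (t : ℝ) :
    ∫⁻ z, ‖k t z‖ₑ ≤ ENNReal.ofReal (2 * (1 + |t|)) := by
  set s : ℝ := 1 + 4 * t ^ 2 with hs
  have hs1 : 1 ≤ s := by nlinarith [sq_nonneg t]
  have hs0 : 0 < s := by linarith
  have hb : 0 < Real.pi / s := div_pos Real.pi_pos hs0
  have hc : 0 ≤ s ^ (-(1 / 4) : ℝ) := Real.rpow_nonneg hs0.le _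
  have e : ∀ z : ℝ, ‖k t z‖ₑ =
      ENNReal.ofReal (s ^ (-(1 / 4) : ℝ) * Real.exp (-(Real.pi / s) * z ^ 2)) := by
    intro z
    rw [← ofReal_norm, h_knorm t z]
    congr 3
    ring
  simp only [e]
  rw [← ofReal_integral_eq_lintegral_ofReal ((integrable_exp_neg_mul_sq hb).const_mul _)
    (Filter.Eventually.of_forall fun z => mul_nonneg hc (Real.exp_pos _).le),
    integral_const_mul, integral_gaussian]
  have h1 : Real.pi / (Real.pi / s) = s := by
    have := Real.pi_pos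
    field_simp
  rw [h1]
  refine ENNReal.ofReal_le_ofReal ((mul_le_of_le_one_left (Real.sqrt_nonneg _)
    (Real.rpow_le_one_of_one_le_of_nonpos hs1 (by norm_num))).trans ?_)
  refine Real.sqrt_le_iff.2 ⟨by positivity, ?_⟩
  rw [hs, ← sq_abs t]
  nlinarith [abs_nonneg t]

theorem l_k (h_young : S_young) (h_knorm : S_knorm) (h_kmeas : S_kmeas) : L_k := by
  intro p t g hp hp3 hg
  have hp0 : 0 ≤ p := zero_le_one.trans hp
  have h1 : ∀ x, ‖U t g x‖ₑ ≤ ∫⁻ y, ‖k t (x - y)‖ₑ * ‖g y‖ₑ := fun x =>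
    (enorm_integral_le_lintegral_enorm _).trans (le_of_eq (lintegral_congr fun y => enorm_mul _ _))
  have h2 := h_young (fun z => ‖k t z‖ₑ) (fun y => ‖g y‖ₑ) p (h_kmeas.1 t).measurable.enorm
    hg.enorm hp
  refine ((lintegral_mono fun x => ENNReal.rpow_le_rpow (h1 x) hp0).trans h2).trans
    (mul_le_mul_left ((ENNReal.rpow_le_rpow (LKn_l1 h_knorm t) hp0).trans ?_) _)
  rw [ENNReal.ofReal_rpow_of_nonneg (by positivity) hp0]
  refine ENNReal.ofReal_le_ofReal ((Real.rpow_le_rpow_of_exponent_le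
    (by linarith [abs_nonneg t]) hp3).trans (le_of_eq ?_))
  rw [show (3 : ℝ) = ((3 : ℕ) : ℝ) by norm_num, Real.rpow_natCast]
  ring

end Vale.Agent.P106
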