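import Vale.Agent.P106.Stm

/-! P106: the main estimate for the superposition. -/

namespace Vale.Agent.P106

open MeasureTheory FourierTransform Set Vale.Agent.P117
open scoped ENNReal

theorem LMain_sl {α β : Type} [MeasurableSpace α] [MeasurableSpace β] (f : α → β → ℝ≥0∞)
    (h : Measurable (fun z : α × β => f z.1 z.2)) (x : β) : Measurable (fun a => f a x) :=
  h.comp (measurable_id.prodMk measurable_const)

theorem LMain_sw {α β : Type} [MeasurableSpace α] [MeasurableSpace β] (f : α → β → ℝ≥0∞)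
    (h : Measurable (fun z : α × β => f z.1 z.2)) : Measurable (fun z : β × α => f z.2 z.1) :=
  h.comp measurable_swap

theorem LMain_third (hk : L_k) (p μ t σ : ℝ) (G : ℝ → ℂ) (hp : 1 ≤ p) (hp3 : p ≤ 3) (hμ : 1 ≤ μ)
    (ht : t ∈ Icc (1 : ℝ) 2) (hG : Measurable G) :
    N p (U (-(t / 2 + σ / μ ^ 2)) G) ≤ ENNReal.ofReal (64 * (1 + |σ|) ^ 3) * N p G := by
  refine (hk p _ G hp hp3 hG).trans (mul_le_mul_left (ENNReal.ofReal_le_ofReal ?_) _)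
  have h1 : 1 ≤ μ ^ 2 := one_le_pow₀ hμ
  have h2 : |σ / μ ^ 2| ≤ |σ| := by
    rw [abs_div, abs_of_nonneg (by positivity : (0 : ℝ) ≤ μ ^ 2)]
    exact div_le_self (abs_nonneg _) h1
  have h3 : |t / 2| ≤ 1 := by
    rw [abs_le]
    constructor <;> linarith [ht.1, ht.2]
  have h4 : |-(t / 2 + σ / μ ^ 2)| ≤ 1 + |σ| := by
    rw [abs_neg]
    exact (abs_add_le _ _).trans (add_le_add h3 h2)
  have h5 : 1 + |-(t / 2 + σ / μ ^ 2)| ≤ 2 * (1 + |σ|) := by linarith [abs_nonneg σ]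
  have h6 : (1 + |-(t / 2 + σ / μ ^ 2)|) ^ 3 ≤ (2 * (1 + |σ|)) ^ 3 :=
    pow_le_pow_left₀ (by positivity) h5 3
  calc 8 * (1 + |-(t / 2 + σ / μ ^ 2)|) ^ 3 ≤ 8 * (2 * (1 + |σ|)) ^ 3 := by linarith
    _ = 64 * (1 + |σ|) ^ 3 := by ring

theorem LMain_wt (μ η σ : ℝ) (hμ : 1 ≤ μ) :
    wt 7 σ * ENNReal.ofReal (64 * (1 + |σ|) ^ 3) * ENNReal.ofReal (μ ^ (2 * η) * (1 + |σ|) ^ 2) =
      wt 2 σ * (64 * ENNReal.ofReal (μ ^ (2 * η))) := by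
  have h0 : 0 < 1 + |σ| := by positivity
  have hm : 0 ≤ μ ^ (2 * η) := Real.rpow_nonneg (by linarith) _
  have h64 : (64 : ℝ≥0∞) = ENNReal.ofReal 64 := by simp
  unfold wt
  rw [h64, ← ENNReal.ofReal_mul (by positivity), ← ENNReal.ofReal_mul (by positivity),
    ← ENNReal.ofReal_mul (by positivity), ← ENNReal.ofReal_mul (by positivity)]
  congr 1
  have e1 : (1 + |σ|) ^ (-(1 + 7) : ℝ) = ((1 + |σ|) ^ 8)⁻¹ := by
    rw [Real.rpow_neg h0.le, show (1 + 7 : ℝ) = ((8 : ℕ) : ℝ) by norm_num, Real.rpow_natCast]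
  have e2 : (1 + |σ|) ^ (-(1 + 2) : ℝ) = ((1 + |σ|) ^ 3)⁻¹ := by
    rw [Real.rpow_neg h0.le, show (1 + 2 : ℝ) = ((3 : ℕ) : ℝ) by norm_num, Real.rpow_natCast]
  rw [e1, e2]
  field_simp

theorem LMain_fix (h_w1 : S_w1) (h_hold : S_hold2) (hx : L_x) (hk : L_k) (p μ t : ℝ)
    (G : Fin 3 → ℝ → ℂ) (hp : 1 ≤ p) (hp3 : p ≤ 3) (hμ : 1 ≤ μ) (ht : t ∈ Icc (1 : ℝ) 2)
    (hG : ∀ j, Measurable (G j)) :
    ENNReal.ofReal (μ ^ 8) * ∫⁻ x, (∫⁻ σ, wt 7 σ * FF G μ t σ x) ^ p ≤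
      (∫⁻ σ, wt 7 σ) ^ (p - 1) * ∫⁻ σ, (wt 7 σ * ENNReal.ofReal (64 * (1 + |σ|) ^ 3) * N p (G 2)) *
        (N p (U (-(t * μ ^ 2 / 2 + σ)) (G 0)) * N p (U (-(t * μ ^ 2 / 2 + σ)) (G 1))) := by
  have hp0 : 0 < p := by linarith
  obtain ⟨hw, hW⟩ := h_w1 7 (by norm_num)
  have hF := (hx p μ t 0 G hp0 hμ hG).1
  have hWp : (∫⁻ σ, wt 7 σ) ^ (p - 1) ≠ ⊤ :=
    ENNReal.rpow_ne_top_of_nonneg (by linarith) hW
  have h1 : ∀ x, (∫⁻ σ, wt 7 σ * FF G μ t σ x) ^ p ≤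
      (∫⁻ σ, wt 7 σ) ^ (p - 1) * ∫⁻ σ, wt 7 σ * FF G μ t σ x ^ p := by
    intro x
    have hm : Measurable (fun σ => FF G μ t σ x) := LMain_sl (FF G μ t) hF x
    have := h_hold p (wt 7) (fun _ => 1) (fun σ => FF G μ t σ x) hp hw measurable_const hm
      (fun _ => le_rfl) (by simpa using hW)
    simpa using this
  have hm2 : Measurable (fun z : E3 × ℝ => wt 7 z.2 * FF G μ t z.2 z.1 ^ p) :=
    (hw.comp measurable_snd).mul ((LMain_sw (FF G μ t) hF).pow_const p)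
  calc ENNReal.ofReal (μ ^ 8) * ∫⁻ x, (∫⁻ σ, wt 7 σ * FF G μ t σ x) ^ p
      ≤ ENNReal.ofReal (μ ^ 8) * ∫⁻ x, (∫⁻ σ, wt 7 σ) ^ (p - 1) *
          ∫⁻ σ, wt 7 σ * FF G μ t σ x ^ p := mul_le_mul_right (lintegral_mono h1) _
    _ = (∫⁻ σ, wt 7 σ) ^ (p - 1) * (ENNReal.ofReal (μ ^ 8) *
          ∫⁻ σ, ∫⁻ x, wt 7 σ * FF G μ t σ x ^ p) := by
        rw [lintegral_const_mul' _ _ hWp, lintegral_lintegral_swap hm2.aemeasurable]
        ring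
    _ ≤ _ := by
        refine mul_le_mul_right ?_ _
        rw [← lintegral_const_mul' _ _ ENNReal.ofReal_ne_top]
        refine lintegral_mono fun σ => ?_
        have hw7 : wt 7 σ ≠ ⊤ := ENNReal.ofReal_ne_top
        have h2 := (hx p μ t σ G hp0 hμ hG).2
        have h3 := LMain_third hk p μ t σ (G 2) hp hp3 hμ ht (hG 2)
        show ENNReal.ofReal (μ ^ 8) * ∫⁻ x, wt 7 σ * FF G μ t σ x ^ p ≤ _
        rw [lintegral_const_mul' _ _ hw7, mul_left_comm, h2]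
        calc wt 7 σ * (N p (U (-(t * μ ^ 2 / 2 + σ)) (G 0)) * N p (U (-(t * μ ^ 2 / 2 + σ)) (G 1)) *
              N p (U (-(t / 2 + σ / μ ^ 2)) (G 2)))
            ≤ wt 7 σ * (N p (U (-(t * μ ^ 2 / 2 + σ)) (G 0)) * N p (U (-(t * μ ^ 2 / 2 + σ)) (G 1)) *
              (ENNReal.ofReal (64 * (1 + |σ|) ^ 3) * N p (G 2))) :=
              mul_le_mul_right (mul_le_mul_right h3 _) _
          _ = _ := by ring

theorem l_main (h_kmeas : S_kmeas) (h_w1 : S_w1) (h_hold : S_hold2) (hx : L_x) (hk : L_k)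
    (ht : L_t) : L_main := by
  intro η p hη hη1 hp hp3
  obtain ⟨C, hC, hCt⟩ := ht η p hη hη1 hp hp3
  obtain ⟨hw, hW⟩ := h_w1 7 (by norm_num)
  obtain ⟨hw2, hW2⟩ := h_w1 2 (by norm_num)
  have hWp : (∫⁻ σ, wt 7 σ) ^ (p - 1) ≠ ⊤ :=
    ENNReal.rpow_ne_top_of_nonneg (by linarith) hW
  refine ⟨(∫⁻ σ, wt 7 σ) ^ (p - 1) * ((∫⁻ σ, wt 2 σ) * (64 * C)),
    ENNReal.mul_ne_top hWp (ENNReal.mul_ne_top hW2 (ENNReal.mul_ne_top (by norm_num) hC)), ?_⟩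
  intro μ G hμ hG
  have hGm : ∀ j, Measurable (G j) := fun j => (hG j).1
  have hc : Measurable (fun z : ℝ × ℝ => -(z.1 * μ ^ 2 / 2 + z.2)) := by fun_prop
  have hP : Measurable (fun z : ℝ × ℝ => N p (U (-(z.1 * μ ^ 2 / 2 + z.2)) (G 0)) *
      N p (U (-(z.1 * μ ^ 2 / 2 + z.2)) (G 1))) :=
    ((h_kmeas.2.2.2.1 _ (hGm 0) p).comp hc).mul ((h_kmeas.2.2.2.1 _ (hGm 1) p).comp hc)
  have hA : Measurable (fun σ : ℝ => wt 7 σ * ENNReal.ofReal (64 * (1 + |σ|) ^ 3) * N p (G 2)) :=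
    (hw.mul (ENNReal.measurable_ofReal.comp (by fun_prop))).mul_const _
  have hm : Measurable (fun z : ℝ × ℝ =>
      (wt 7 z.2 * ENNReal.ofReal (64 * (1 + |z.2|) ^ 3) * N p (G 2)) *
        (N p (U (-(z.1 * μ ^ 2 / 2 + z.2)) (G 0)) * N p (U (-(z.1 * μ ^ 2 / 2 + z.2)) (G 1)))) :=
    (hA.comp measurable_snd).mul hP
  rw [← lintegral_const_mul' _ _ ENNReal.ofReal_ne_top]
  calc ∫⁻ t in Icc (1 : ℝ) 2, ENNReal.ofReal (μ ^ 8) * ∫⁻ x, (∫⁻ σ, wt 7 σ * FF G μ t σ x) ^ p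
      ≤ ∫⁻ t in Icc (1 : ℝ) 2, (∫⁻ σ, wt 7 σ) ^ (p - 1) *
          ∫⁻ σ, (wt 7 σ * ENNReal.ofReal (64 * (1 + |σ|) ^ 3) * N p (G 2)) *
            (N p (U (-(t * μ ^ 2 / 2 + σ)) (G 0)) * N p (U (-(t * μ ^ 2 / 2 + σ)) (G 1))) :=
        setLIntegral_mono' measurableSet_Icc fun t ht =>
          LMain_fix h_w1 h_hold hx hk p μ t G (by linarith) hp3 hμ ht hGm
    _ = (∫⁻ σ, wt 7 σ) ^ (p - 1) * ∫⁻ σ, ∫⁻ t in Icc (1 : ℝ) 2,
          (wt 7 σ * ENNReal.ofReal (64 * (1 + |σ|) ^ 3) * N p (G 2)) *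
            (N p (U (-(t * μ ^ 2 / 2 + σ)) (G 0)) * N p (U (-(t * μ ^ 2 / 2 + σ)) (G 1))) := by
        rw [lintegral_const_mul' _ _ hWp, lintegral_lintegral_swap hm.aemeasurable]
    _ ≤ (∫⁻ σ, wt 7 σ) ^ (p - 1) * ∫⁻ σ, wt 2 σ *
          (64 * C * ENNReal.ofReal (μ ^ (2 * η)) * (N p (G 0) * N p (G 1) * N p (G 2))) := by
        refine mul_le_mul_right (lintegral_mono fun σ => ?_) _
        have hPσ : Measurable (fun t : ℝ => N p (U (-(t * μ ^ 2 / 2 + σ)) (G 0)) *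
            N p (U (-(t * μ ^ 2 / 2 + σ)) (G 1))) :=
          LMain_sl (fun t σ : ℝ => N p (U (-(t * μ ^ 2 / 2 + σ)) (G 0)) *
            N p (U (-(t * μ ^ 2 / 2 + σ)) (G 1))) hP σ
        show ∫⁻ t in Icc (1 : ℝ) 2, (wt 7 σ * ENNReal.ofReal (64 * (1 + |σ|) ^ 3) * N p (G 2)) *
            (N p (U (-(t * μ ^ 2 / 2 + σ)) (G 0)) * N p (U (-(t * μ ^ 2 / 2 + σ)) (G 1))) ≤ _
        rw [lintegral_const_mul _ hPσ]
        refine (mul_le_mul_right (hCt μ σ (G 0) (G 1) hμ (hG 0) (hG 1)) _).trans (le_of_eq ?_)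
        have h5 := LMain_wt μ η σ hμ
        calc wt 7 σ * ENNReal.ofReal (64 * (1 + |σ|) ^ 3) * N p (G 2) *
              (C * ENNReal.ofReal (μ ^ (2 * η) * (1 + |σ|) ^ 2) * (N p (G 0) * N p (G 1)))
            = (wt 7 σ * ENNReal.ofReal (64 * (1 + |σ|) ^ 3) *
                ENNReal.ofReal (μ ^ (2 * η) * (1 + |σ|) ^ 2)) *
                (C * (N p (G 0) * N p (G 1) * N p (G 2))) := by ring
          _ = _ := by rw [h5]; ring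
    _ = _ := by
        rw [lintegral_mul_const _ hw2]
        ring

end Vale.Agent.P106
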