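import Vale.Agent.P106.Stm

/-! P106: the one-dimensional factor. -/

namespace Vale.Agent.P106

open MeasureTheory FourierTransform Set Vale.Agent.P117
open scoped ENNReal

theorem LOne_subst (Φ : ℝ → ℂ) (a r : ℝ) (hr : 0 < r) :
    ∫ ξ, Φ ξ = ∫ y, (r : ℂ) * Φ (a + r * y) := by
  have h1 := Measure.integral_comp_mul_left (fun z => Φ (a + z)) r
  rw [integral_add_left_eq_self Φ a] at h1
  rw [integral_const_mul, h1, abs_of_pos (inv_pos.mpr hr), Complex.real_smul, ← mul_assoc]
  have hr' : (r : ℂ) ≠ 0 := by exact_mod_cast hr.ne'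
  rw [Complex.ofReal_inv, mul_inv_cancel₀ hr', one_mul]

theorem l_one (h_one : S_one) : L_one := by
  intro g G a r τ s x hr hrel
  rw [LOne_subst _ a r hr, ← h_one G hrel.1.2.1 τ (r * x + s), ← integral_const_mul]
  refine integral_congr_ae (Filter.Eventually.of_forall fun y => ?_)
  have hy : (a + r * y - a) / r = y := by
    field_simp
    ring
  simp only [hy]
  rw [mul_left_comm, hrel.2 y]
  have key : ex (-(τ * y ^ 2) + s * y + x * (a + r * y)) * Complex.exp (-Real.pi * (y : ℂ) ^ 2) =
      ex (x * a) * (Complex.exp (-Real.pi * bb τ * (y : ℂ) ^ 2) *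
        Complex.exp (2 * Real.pi * Complex.I * (((r * x + s : ℝ) : ℂ) * y))) := by
    simp only [ex, bb, ← Complex.exp_add]
    congr 1
    push_cast
    ring
  rw [← mul_assoc, key]
  ring

end Vale.Agent.P106
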