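import Vale.Agent.P106.Stm

/-! Expansion of the phase on the frequency box. -/

namespace Vale.Agent.P106

open MeasureTheory FourierTransform Set Vale.Agent.P117
open scoped ENNReal

theorem LPh_sq {x m : ℝ} (hm : 0 < m) (h : |x| ≤ m) : (x / m) ^ 2 ≤ 1 := by
  rw [div_pow, div_le_one (by positivity)]
  exact sq_le_sq' (abs_le.1 h).1 (abs_le.1 h).2

theorem LPh_G {μ v : ℝ} (hμ : 0 < μ) (hv : 0 ≤ v) :
    μ ^ 4 * √(1 + 1 / μ ^ 2 * v) = μ ^ 4 + μ ^ 2 * v / 2 + GG (1 / μ ^ 2) v := by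
  have h0 : 0 ≤ 1 + 1 / μ ^ 2 * v := by positivity
  have h1 := Real.sq_sqrt h0
  have h2 := Real.sqrt_nonneg (1 + 1 / μ ^ 2 * v)
  rw [GG]
  generalize √(1 + 1 / μ ^ 2 * v) = s at h1 h2
  have hd : 0 < s + 1 + 1 / μ ^ 2 * v / 2 := by positivity
  have e : μ ^ 2 * (1 / μ ^ 2) = 1 := mul_one_div_cancel (by positivity)
  generalize 1 / μ ^ 2 = ε at h1 hd e
  rw [← sub_eq_iff_eq_add', eq_div_iff hd.ne']
  have e2 : μ ^ 2 * v / 2 = μ ^ 4 * (ε * v / 2) := by linear_combination (-(μ ^ 2 * v / 2)) * e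
  rw [e2]
  linear_combination μ ^ 4 * h1 - (v ^ 2 / 4) * (μ ^ 2 * ε + 1) * e

theorem l_ph : L_ph := by
  intro μ _ ξ hμ h0 h1 h2 v hv
  have hm : 0 < μ := by linarith
  have hm2 : 0 < μ ^ 2 := by positivity
  have hm1 : 1 ≤ μ ^ 2 := one_le_pow₀ hμ
  have a0 := LPh_sq (by positivity) h0
  have a1 := LPh_sq (by positivity) h1
  have c0 : 0 ≤ (ξ 2 - μ ^ 4) / μ ^ 2 := div_nonneg (by linarith [h2.1]) hm2.le
  have c1 : (ξ 2 - μ ^ 4) / μ ^ 2 ≤ 1 := (div_le_one hm2).2 (by linarith [h2.2])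
  have c2 : ((ξ 2 - μ ^ 4) / μ ^ 2) ^ 2 / μ ^ 2 ≤ 1 :=
    (div_le_one hm2).2 ((pow_le_one₀ c0 c1).trans hm1)
  have hv0 : 0 ≤ v := by rw [hv]; positivity
  refine ⟨⟨hv0, by rw [hv]; linarith⟩, ?_⟩
  rw [← LPh_G hm hv0, EuclideanSpace.norm_eq, Fin.sum_univ_three]
  simp only [Real.norm_eq_abs, sq_abs]
  have e : ξ 0 ^ 2 + ξ 1 ^ 2 + ξ 2 ^ 2 = (μ ^ 4) ^ 2 * (1 + 1 / μ ^ 2 * v) := by
    rw [hv]
    field_simp
    ring
  rw [e, Real.sqrt_mul (by positivity), Real.sqrt_sq (by positivity)]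

end Vale.Agent.P106
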