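import Vale.Agent.P106.Stm

/-! Scaling and modulation in one dimension. -/

namespace Vale.Agent.P106

open MeasureTheory FourierTransform Set Vale.Agent.P117
open scoped ENNReal

theorem LSc_norm_ex (θ : ℝ) : ‖ex θ‖ = 1 := by
  unfold ex
  have h : (2 * Real.pi * Complex.I * (θ : ℂ)) = ((2 * Real.pi * θ : ℝ) : ℂ) * Complex.I := by
    push_cast; ring
  rw [h, Complex.norm_exp_ofReal_mul_I]

theorem LSc_cont_ex : Continuous ex := by
  unfold ex
  fun_prop

theorem LSc_lint (F : ℝ → ℝ≥0∞) (hF : Measurable F) {r : ℝ} (hr : 0 < r) :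
    ∫⁻ x, F (x / r) = ENNReal.ofReal r * ∫⁻ x, F x := by
  have h1 : ∀ x : ℝ, x / r = r⁻¹ * x := fun x => by rw [div_eq_inv_mul]
  simp_rw [h1]
  have h2 := lintegral_map (μ := (volume : Measure ℝ)) hF (measurable_const_mul r⁻¹)
  rw [Real.map_volume_mul_left (inv_ne_zero hr.ne'), lintegral_smul_measure, inv_inv,
    abs_of_pos hr, smul_eq_mul] at h2
  exact h2.symm

theorem l_sc : L_sc := by
  intro g a r p hr
  obtain ⟨Φ, hΦ⟩ : ∃ Φ : ℝ → ℂ, Φ = fun w => ex (-(a * w)) * g w := ⟨_, rfl⟩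
  have hΦn : ∀ w, ‖Φ w‖ = ‖g w‖ := by
    intro w
    rw [hΦ]
    beta_reduce
    rw [norm_mul, LSc_norm_ex, one_mul]
  have hΦc : Continuous Φ := by
    rw [hΦ]
    exact (LSc_cont_ex.comp (by fun_prop)).mul g.continuous
  have hΦi : Integrable Φ :=
    (g.integrable (μ := volume)).norm.mono' hΦc.aestronglyMeasurable
      (Filter.Eventually.of_forall fun w => (hΦn w).le)
  refine ⟨fun y => Φ (y / r), ⟨?_, hΦi.comp_div hr.ne', ?_⟩, ?_, ?_⟩
  · exact hΦc.measurable.comp (measurable_id.div_const r)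
  · refine ⟨SchwartzMap.seminorm ℝ 0 0 g, fun y => ?_⟩
    rw [hΦn]
    exact SchwartzMap.norm_le_seminorm ℝ g _
  · intro y
    rw [Real.fourier_real_eq_integral_exp_smul, Real.fourier_real_eq_integral_exp_smul]
    have h1 : ∀ v : ℝ, Complex.exp (↑(-2 * Real.pi * v * y) * Complex.I) • Φ (v / r) =
        (fun w : ℝ => Complex.exp (↑(-2 * Real.pi * w * (a + r * y)) * Complex.I) • g w)
          (v / r) := by
      intro v
      rw [hΦ]
      beta_reduce
      unfold ex
      rw [smul_eq_mul, smul_eq_mul, ← mul_assoc, ← Complex.exp_add]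
      congr 2
      have hr' : (r : ℂ) ≠ 0 := Complex.ofReal_ne_zero.2 hr.ne'
      push_cast
      field_simp
      ring
    simp_rw [h1]
    rw [Measure.integral_comp_div
      (fun w : ℝ => Complex.exp (↑(-2 * Real.pi * w * (a + r * y)) * Complex.I) • g w) r,
      abs_of_pos hr, Complex.real_smul]
  · unfold N
    have h1 : ∀ w, ‖Φ w‖ₑ = ‖g w‖ₑ := by
      intro w
      rw [← ofReal_norm, ← ofReal_norm, hΦn]
    simp_rw [h1]
    exact LSc_lint (fun x => ‖g x‖ₑ ^ p) (g.continuous.measurable.enorm.pow_const p) hr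

end Vale.Agent.P106
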