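import Vale.Agent.P106.Stm

/-! The time integral of two Schrödinger evolutions. -/

namespace Vale.Agent.P106

open MeasureTheory FourierTransform Set Vale.Agent.P117
open scoped ENNReal

theorem LT_sub (F : ℝ → ℝ≥0∞) (hF : Measurable F) {μ : ℝ} (hμ : 1 ≤ μ) (σ : ℝ) :
    ∫⁻ t, F (-(t * μ ^ 2 / 2 + σ)) = ENNReal.ofReal (2 / μ ^ 2) * ∫⁻ t, F t := by
  have h0 : 0 < μ ^ 2 := by positivity
  have ha : -(μ ^ 2 / 2) ≠ 0 := neg_ne_zero.2 (by positivity)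
  have hG : Measurable fun s => F (s + -σ) := hF.comp (measurable_id.add_const _)
  have k := lintegral_map (μ := volume) hG (measurable_const_mul (-(μ ^ 2 / 2)))
  rw [Real.map_volume_mul_left ha, lintegral_smul_measure, lintegral_add_right_eq_self F,
    inv_neg, abs_neg, inv_div, abs_of_pos (by positivity), smul_eq_mul] at k
  rw [k]
  exact lintegral_congr fun t => congrArg F (by ring)

theorem LT_pow {x y : ℝ≥0∞} {a : ℝ} (hy : 1 ≤ y) (hxy : x ≤ y) (a0 : 0 ≤ a) (a1 : a ≤ 1 / 2) :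
    x ^ a * y ^ a ≤ y := by
  calc x ^ a * y ^ a ≤ y ^ a * y ^ a := mul_le_mul_left (ENNReal.rpow_le_rpow hxy a0) _
    _ = y ^ (a + a) := (ENNReal.rpow_add_of_nonneg a a a0 a0).symm
    _ ≤ y ^ (1 : ℝ) := ENNReal.rpow_le_rpow_of_exponent_le hy (by linarith)
    _ = y := ENNReal.rpow_one y

theorem LT_pow2 {x y : ℝ≥0∞} {a : ℝ} (hx : 1 ≤ x) (hy : 1 ≤ y) (a0 : 0 ≤ a) (a1 : a ≤ 1 / 2) :
    x ^ a * y ^ a ≤ x + y := by
  rcases le_total x y with h | h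
  · exact (LT_pow hy h a0 a1).trans le_add_self
  · rw [mul_comm]
    exact (LT_pow hx h a0 a1).trans le_self_add

theorem LT_wt {η μ t : ℝ} (σ : ℝ) (hη : 0 < η) (hμ : 1 ≤ μ) (ht : t ∈ Icc (1 : ℝ) 2) :
    1 ≤ ENNReal.ofReal ((2 * μ ^ 2 * (1 + |σ|)) ^ (1 + η)) * wt η (-(t * μ ^ 2 / 2 + σ)) := by
  have m1 : 1 ≤ μ ^ 2 := one_le_pow₀ hμ
  have s0 := abs_nonneg σ
  have h1 : |-(t * μ ^ 2 / 2 + σ)| ≤ μ ^ 2 + |σ| := by
    rw [abs_neg]
    refine (abs_add_le _ _).trans (add_le_add_left ?_ _)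
    rw [abs_of_nonneg (by nlinarith [ht.1])]
    nlinarith [ht.2]
  generalize -(t * μ ^ 2 / 2 + σ) = τ at h1
  have p0 : 0 < 1 + |τ| := by positivity
  have h2 : 1 + |τ| ≤ 2 * μ ^ 2 * (1 + |σ|) := by nlinarith
  have h3 := Real.rpow_le_rpow p0.le h2 (show 0 ≤ 1 + η by linarith)
  rw [wt, ← ENNReal.ofReal_mul (by positivity), Real.rpow_neg p0.le, ← div_eq_mul_inv,
    ENNReal.one_le_ofReal]
  exact (one_le_div (Real.rpow_pos_of_pos p0 _)).2 h3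

theorem LT_num {η μ : ℝ} (σ : ℝ) (h1 : η ≤ 1) (hμ : 1 ≤ μ) :
    (2 * μ ^ 2 * (1 + |σ|)) ^ (1 + η) * (2 / μ ^ 2) ≤ 8 * (μ ^ (2 * η) * (1 + |σ|) ^ 2) := by
  have μ0 : 0 < μ := by linarith
  have m0 : 0 < μ ^ 2 := by positivity
  have s1 : 1 ≤ 1 + |σ| := by linarith [abs_nonneg σ]
  have a1 : (2 : ℝ) ^ (1 + η) ≤ 4 := by
    have := Real.rpow_le_rpow_of_exponent_le (one_le_two (α := ℝ)) (show 1 + η ≤ 2 by linarith)
    rw [Real.rpow_two] at this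
    linarith
  have a2 : (μ ^ 2) ^ (1 + η) = μ ^ 2 * μ ^ (2 * η) := by
    rw [Real.rpow_add m0, Real.rpow_one, Real.rpow_mul μ0.le, Real.rpow_two]
  have a3 : (1 + |σ|) ^ (1 + η) ≤ (1 + |σ|) ^ 2 := by
    have := Real.rpow_le_rpow_of_exponent_le s1 (show 1 + η ≤ 2 by linarith)
    rwa [Real.rpow_two] at this
  rw [Real.mul_rpow (by positivity) (by positivity), Real.mul_rpow (by positivity) m0.le, a2]
  calc 2 ^ (1 + η) * (μ ^ 2 * μ ^ (2 * η)) * (1 + |σ|) ^ (1 + η) * (2 / μ ^ 2)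
      = 2 ^ (1 + η) * (1 + |σ|) ^ (1 + η) * (2 * μ ^ (2 * η)) := by field_simp
    _ ≤ 4 * (1 + |σ|) ^ 2 * (2 * μ ^ (2 * η)) := by gcongr
    _ = _ := by ring

theorem l_t (hphi : ∀ η p : ℝ, 0 < η → 2 ≤ p → p ≤ 4 → Phi η p) : L_t := by
  intro η p hη h1 hp hp3
  obtain ⟨C, hC, hΦ⟩ := hphi η p hη hp.le (by linarith)
  refine ⟨8 * (C * C * (C + C)), by finiteness, fun μ σ G G' hμ hG hG' => ?_⟩
  obtain ⟨φ, m1, b1, i1, e1⟩ := hΦ G hG
  obtain ⟨ψ, m2, b2, i2, e2⟩ := hΦ G' hG'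
  have mw : Measurable (wt η) := by
    unfold wt
    fun_prop
  have mF : Measurable fun τ => wt η τ * φ τ + wt η τ * ψ τ := (mw.mul m1).add (mw.mul m2)
  have iF : ∫⁻ τ, (wt η τ * φ τ + wt η τ * ψ τ) ≤ C + C := by
    exact (lintegral_add_left (f := fun τ => wt η τ * φ τ) (mw.mul m1) _).le.trans
      (add_le_add i1 i2)
  have hN : ENNReal.ofReal ((2 * μ ^ 2 * (1 + |σ|)) ^ (1 + η)) * ENNReal.ofReal (2 / μ ^ 2) ≤
      8 * ENNReal.ofReal (μ ^ (2 * η) * (1 + |σ|) ^ 2) := by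
    rw [← ENNReal.ofReal_mul (by positivity), ← ENNReal.ofReal_ofNat 8,
      ← ENNReal.ofReal_mul (by positivity)]
    exact ENNReal.ofReal_le_ofReal (LT_num σ h1 hμ)
  have hW := fun t => LT_wt (t := t) σ hη hμ
  generalize ENNReal.ofReal ((2 * μ ^ 2 * (1 + |σ|)) ^ (1 + η)) = Q at hN hW
  have pt : ∀ τ, 1 ≤ Q * wt η τ → N p (U τ G) * N p (U τ G') ≤
      C * C * (N p G * N p G') * Q * (wt η τ * φ τ + wt η τ * ψ τ) := fun τ hτ => by
    calc N p (U τ G) * N p (U τ G') ≤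
          C * φ τ ^ ((p - 2) / 2) * N p G * (C * ψ τ ^ ((p - 2) / 2) * N p G') :=
          mul_le_mul' (e1 τ) (e2 τ)
      _ = C * C * (N p G * N p G') * (1 * (φ τ ^ ((p - 2) / 2) * ψ τ ^ ((p - 2) / 2))) := by ring
      _ ≤ C * C * (N p G * N p G') * (Q * wt η τ * (φ τ + ψ τ)) :=
          mul_le_mul_right (mul_le_mul' hτ
            (LT_pow2 (b1 τ) (b2 τ) (by linarith) (by linarith))) _
      _ = _ := by ring
  have mT : Measurable fun t : ℝ => -(t * μ ^ 2 / 2 + σ) := by fun_prop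
  refine (setLIntegral_mono' measurableSet_Icc fun t ht => pt _ (hW t ht)).trans ?_
  refine (setLIntegral_le_lintegral _ _).trans ?_
  refine (lintegral_const_mul _ (mF.comp mT)).le.trans ?_
  refine (congrArg _ (LT_sub _ mF hμ σ)).le.trans ?_
  calc C * C * (N p G * N p G') * Q * (ENNReal.ofReal (2 / μ ^ 2) *
        ∫⁻ τ, (wt η τ * φ τ + wt η τ * ψ τ))
      ≤ C * C * (N p G * N p G') * Q * (ENNReal.ofReal (2 / μ ^ 2) * (C + C)) := by gcongr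
    _ = C * C * (C + C) * (N p G * N p G') * (Q * ENNReal.ofReal (2 / μ ^ 2)) := by ring
    _ ≤ C * C * (C + C) * (N p G * N p G') *
        (8 * ENNReal.ofReal (μ ^ (2 * η) * (1 + |σ|) ^ 2)) := mul_le_mul_right hN _
    _ = _ := by ring

end Vale.Agent.P106
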