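import Vale.Agent.P106.Stm

/-! Removing the Gaussian damping on a compact frequency set. -/

namespace Vale.Agent.P106

open MeasureTheory FourierTransform Set Vale.Agent.P117
open scoped ENNReal

theorem LUnd_ker : ∃ κ : SchwartzMap ℝ ℂ, ∀ y : ℝ, |y| ≤ 1 →
    𝓕 (κ : ℝ → ℂ) y = Complex.exp (Real.pi * (y : ℂ) ^ 2) := by
  let χ : ContDiffBump (0 : ℝ) := ⟨1, 2, one_pos, one_lt_two⟩
  have h1 : HasCompactSupport fun y : ℝ => ((Real.exp (Real.pi * y ^ 2) * χ y : ℝ) : ℂ) :=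
    (χ.hasCompactSupport.mul_left (f := fun y : ℝ => Real.exp (Real.pi * y ^ 2))).comp_left
      (g := fun r : ℝ => (r : ℂ)) Complex.ofReal_zero
  have h2 : ContDiff ℝ ((⊤ : ℕ∞) : WithTop ℕ∞)
      fun y : ℝ => ((Real.exp (Real.pi * y ^ 2) * χ y : ℝ) : ℂ) :=
    Complex.ofRealCLM.contDiff.comp
      ((by fun_prop : ContDiff ℝ _ fun y : ℝ => Real.exp (Real.pi * y ^ 2)).mul χ.contDiff)
  refine ⟨𝓕⁻ (h1.toSchwartzMap h2), fun y hy => ?_⟩
  rw [← SchwartzMap.fourier_coe, fourier_fourierInv_eq]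
  change ((Real.exp (Real.pi * y ^ 2) * χ y : ℝ) : ℂ) = _
  rw [χ.one_of_mem_closedBall (by simpa using hy), mul_one]
  push_cast
  rfl

theorem l_und (h_young : S_young) : L_und := by
  intro p hp
  have hp0 : 0 ≤ p := zero_le_one.trans hp
  obtain ⟨κ, hκ⟩ := LUnd_ker
  have ki : Integrable (κ : ℝ → ℂ) := κ.integrable
  have km : Measurable (κ : ℝ → ℂ) := κ.continuous.measurable
  refine ⟨(∫⁻ z, ‖κ z‖ₑ) ^ p, ENNReal.rpow_ne_top_of_nonneg hp0 ki.2.ne, ?_⟩
  rintro g ⟨gm, gi, M, hM⟩ h0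
  refine ⟨fun x => ∫ y, g y * κ (x - y), ⟨⟨?_, ?_, M * ∫ z, ‖κ z‖, fun x => ?_⟩, fun y => ?_⟩, ?_⟩
  · have m0 : Measurable fun w : ℝ × ℝ => g w.2 * κ (w.1 - w.2) :=
      (gm.comp measurable_snd).mul (km.comp (measurable_fst.sub measurable_snd))
    exact (m0.stronglyMeasurable.integral_prod_right' (ν := volume)).measurable
  · exact gi.integrable_convolution (ContinuousLinearMap.mul ℂ ℂ) ki
  · rw [← integral_sub_left_eq_self (fun z => ‖κ z‖) volume x, ← integral_const_mul]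
    refine norm_integral_le_of_norm_le ((ki.comp_sub_left x).norm.const_mul M)
      (Filter.Eventually.of_forall fun y => ?_)
    rw [norm_mul]
    exact mul_le_mul_of_nonneg_right (hM y) (norm_nonneg _)
  · have e : 𝓕 (fun x => ∫ y, g y * κ (x - y)) y = 𝓕 g y * 𝓕 (κ : ℝ → ℂ) y :=
      Real.fourier_mul_convolution_eq gi ki y
    rw [e, zero_add, one_mul, Complex.ofReal_one, one_mul]
    by_cases hy : |y| ≤ 1
    · rw [hκ y hy, mul_left_comm, ← Complex.exp_add, neg_mul, neg_add_cancel, Complex.exp_zero,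
        mul_one]
    · rw [h0 y (not_le.1 hy), zero_mul, mul_zero]
  · have h1 : ∀ x, ‖∫ y, g y * κ (x - y)‖ₑ ≤ ∫⁻ y, ‖κ (x - y)‖ₑ * ‖g y‖ₑ := fun x =>
      (enorm_integral_le_lintegral_enorm _).trans
        (le_of_eq (lintegral_congr fun y => (enorm_mul _ _).trans (mul_comm _ _)))
    exact (lintegral_mono fun x => ENNReal.rpow_le_rpow (h1 x) hp0).trans
      (h_young (fun z => ‖κ z‖ₑ) (fun y => ‖g y‖ₑ) p km.enorm gm.enorm hp)

end Vale.Agent.P106
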