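import Vale.Agent.P106.Stm

namespace Vale.Agent.P106

open MeasureTheory FourierTransform Set Vale.Agent.P117
open scoped ENNReal

theorem LX_one {f : ℝ → ℝ≥0∞} (hf : Measurable f) {r : ℝ} (hr : 0 < r) (s : ℝ) :
    ENNReal.ofReal r * ∫⁻ y, f (r * y + s) = ∫⁻ y, f y := by
  have h1 : Measurable fun y => f (y + s) := hf.comp (measurable_add_const s)
  rw [← lintegral_add_right_eq_self f s]
  conv_rhs => rw [← Real.smul_map_volume_mul_left hr.ne', lintegral_smul_measure,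
    lintegral_map h1 (measurable_const_mul r), abs_of_pos hr, smul_eq_mul]

theorem LX_three (h_lprod : S_lprod) {f g h : ℝ → ℝ≥0∞} (hf : Measurable f) (hg : Measurable g)
    (hh : Measurable h) :
    ∫⁻ x : E3, f (x 0) * g (x 1) * h (x 2) = (∫⁻ y, f y) * (∫⁻ y, g y) * ∫⁻ y, h y := by
  have := h_lprod ![f, g, h] fun j => by fin_cases j <;> assumption
  simpa only [Fin.prod_univ_three, Matrix.cons_val_zero, Matrix.cons_val_one, Matrix.cons_val_two,
    Matrix.head_cons, Matrix.tail_cons] using this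

theorem l_x (h_lprod : S_lprod) (h_kmeas : S_kmeas) : L_x := by
  intro p μ t σ G hp hμ hG
  have hU := fun j => h_kmeas.2.2.1 (G j) (hG j)
  have hμ0 : 0 < μ := by linarith
  constructor
  · have m0 : Measurable fun z : ℝ × E3 => ((-(t * μ ^ 2 / 2 + z.1), μ ^ 3 * z.2 0) : ℝ × ℝ) := by
      fun_prop
    have m1 : Measurable fun z : ℝ × E3 => ((-(t * μ ^ 2 / 2 + z.1), μ ^ 3 * z.2 1) : ℝ × ℝ) := by
      fun_prop
    have m2 : Measurable fun z : ℝ × E3 =>
        ((-(t / 2 + z.1 / μ ^ 2), μ ^ 2 * z.2 2 + (t * μ ^ 2 + 2 * z.1)) : ℝ × ℝ) := by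
      fun_prop
    exact (((hU 0).comp m0).enorm.mul ((hU 1).comp m1).enorm).mul ((hU 2).comp m2).enorm
  · have hm : ∀ j τ, Measurable fun y => ‖U τ (G j) y‖ₑ ^ p := fun j τ =>
      ((hU j).comp measurable_prodMk_left).enorm.pow_const p
    have e0 := LX_one (hm 0 (-(t * μ ^ 2 / 2 + σ))) (pow_pos hμ0 3) 0
    have e1 := LX_one (hm 1 (-(t * μ ^ 2 / 2 + σ))) (pow_pos hμ0 3) 0
    have e2 := LX_one (hm 2 (-(t / 2 + σ / μ ^ 2))) (pow_pos hμ0 2) (t * μ ^ 2 + 2 * σ)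
    simp only [add_zero] at e0 e1
    have e3 := LX_three h_lprod
      (f := fun y => ‖U (-(t * μ ^ 2 / 2 + σ)) (G 0) (μ ^ 3 * y)‖ₑ ^ p)
      (g := fun y => ‖U (-(t * μ ^ 2 / 2 + σ)) (G 1) (μ ^ 3 * y)‖ₑ ^ p)
      (h := fun y => ‖U (-(t / 2 + σ / μ ^ 2)) (G 2) (μ ^ 2 * y + (t * μ ^ 2 + 2 * σ))‖ₑ ^ p)
      ((hm 0 _).comp (measurable_const_mul _)) ((hm 1 _).comp (measurable_const_mul _))
      ((hm 2 _).comp ((measurable_const_mul _).add_const _))
    have e4 : ENNReal.ofReal (μ ^ 8) =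
        ENNReal.ofReal (μ ^ 3) * ENNReal.ofReal (μ ^ 3) * ENNReal.ofReal (μ ^ 2) := by
      rw [← ENNReal.ofReal_mul (by positivity), ← ENNReal.ofReal_mul (by positivity)]
      congr 1
      ring
    unfold FF N
    simp only [ENNReal.mul_rpow_of_nonneg _ _ hp.le]
    rw [e3, e4, ← e0, ← e1, ← e2]
    ring

end Vale.Agent.P106
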