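import Vale.Agent.P106.Stm2

namespace Vale.Agent.P106

open MeasureTheory FourierTransform Set Vale.Agent.P117
open scoped ENNReal

theorem m_inf (_h_kmeas : S_kmeas) (hk : M_k1) : M_inf := by
  intro τ b x G hb _ hG
  have h0 : (0 : ℝ) ≤ 2 * √(1 + |τ|) := by positivity
  have h1 : ‖U τ G x‖ₑ ≤ ∫⁻ y, ‖k τ (x - y)‖ₑ * ENNReal.ofReal b := by
    unfold U
    refine (enorm_integral_le_lintegral_enorm _).trans (lintegral_mono fun y => ?_)
    rw [enorm_mul]
    refine mul_le_mul_of_nonneg_left ?_ zero_le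
    rw [← ofReal_norm]
    exact ENNReal.ofReal_le_ofReal (hG y)
  rw [lintegral_mul_const' _ _ ENNReal.ofReal_ne_top,
    lintegral_sub_left_eq_self (fun z => ‖k τ z‖ₑ) x] at h1
  have h2 : ‖U τ G x‖ₑ ≤ ENNReal.ofReal (2 * √(1 + |τ|) * b) := by
    rw [ENNReal.ofReal_mul h0]
    exact h1.trans (mul_le_mul_of_nonneg_right (hk τ) zero_le)
  rw [← ofReal_norm] at h2
  exact (ENNReal.ofReal_le_ofReal_iff (mul_nonneg h0 hb)).1 h2

end Vale.Agent.P106
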