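import Vale.Agent.P106.Stm2

/-! The first moment bound for the damped kernel. -/

namespace Vale.Agent.P106

open MeasureTheory FourierTransform Set Vale.Agent.P117
open scoped ENNReal

theorem MK1_num (s u : ℝ) (hs0 : 0 < s) (hu : 0 ≤ u) (h : s ≤ (4 * u) ^ 2) :
    s ^ (-(1 / 4) : ℝ) * √s ≤ 2 * √u := by
  have e : s ^ (-(1 / 4) : ℝ) * √s = √(√s) := by
    rw [Real.sqrt_eq_rpow, Real.sqrt_eq_rpow, ← Real.rpow_add hs0, ← Real.rpow_mul hs0.le]
    congr 1
    norm_num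
  have h1 : √s ≤ 4 * u := Real.sqrt_le_iff.2 ⟨by positivity, h⟩
  rw [e]
  refine Real.sqrt_le_iff.2 ⟨by positivity, ?_⟩
  rw [mul_pow, Real.sq_sqrt hu]
  linarith

theorem m_k1 (h_knorm : S_knorm) : M_k1 := by
  intro t
  obtain ⟨s, hs⟩ : ∃ s : ℝ, s = 1 + 4 * t ^ 2 := ⟨_, rfl⟩
  have hs1 : 1 ≤ s := by nlinarith [sq_nonneg t]
  have hs0 : 0 < s := by linarith
  have hb : 0 < Real.pi / s := div_pos Real.pi_pos hs0
  have hc : 0 ≤ s ^ (-(1 / 4) : ℝ) := Real.rpow_nonneg hs0.le _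
  have e : ∀ z : ℝ, ‖k t z‖ₑ =
      ENNReal.ofReal (s ^ (-(1 / 4) : ℝ) * Real.exp (-(Real.pi / s) * z ^ 2)) := by
    intro z
    rw [← ofReal_norm, h_knorm t z, ← hs]
    congr 3
    ring
  simp only [e]
  rw [← ofReal_integral_eq_lintegral_ofReal ((integrable_exp_neg_mul_sq hb).const_mul _)
    (Filter.Eventually.of_forall fun z => mul_nonneg hc (Real.exp_pos _).le),
    integral_const_mul, integral_gaussian]
  have h1 : Real.pi / (Real.pi / s) = s := by
    have := Real.pi_pos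
    field_simp
  rw [h1]
  refine ENNReal.ofReal_le_ofReal (MK1_num s _ hs0 (by positivity) ?_)
  rw [hs, ← sq_abs t]
  nlinarith [abs_nonneg t]

end Vale.Agent.P106
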