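import Vale.Agent.P106.Stm2

/-! Interpolation between the exponents two and infinity. -/

namespace Vale.Agent.P106

open MeasureTheory FourierTransform Set Vale.Agent.P117
open scoped ENNReal

theorem m_mar (h_m2 : S_m2) : M_mar := by
  intro p h2
  have hp : 0 < p := by linarith
  refine ⟨ENNReal.ofReal (2 ^ p * p * 4) * ENNReal.ofReal (1 / (p - 2)), by finiteness,
    fun F g K hK hF hg h => ?_⟩
  have hK2 : 0 < 2 * K := by positivity
  have e1 : ∀ z, ‖F z‖ₑ ^ p =
      ENNReal.ofReal ((2 * K) ^ p) * ENNReal.ofReal ((‖F z‖ / (2 * K)) ^ p) := fun z => by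
    rw [← ofReal_norm_eq_enorm, ENNReal.ofReal_rpow_of_nonneg (norm_nonneg _) hp.le,
      ← ENNReal.ofReal_mul (by positivity), ← Real.mul_rpow hK2.le (by positivity),
      mul_div_cancel₀ _ hK2.ne']
  have e0 : N p F = ∫⁻ x, ‖F x‖ₑ ^ p := rfl
  rw [e0]
  simp only [e1]
  rw [lintegral_const_mul' _ _ ENNReal.ofReal_ne_top,
    lintegral_rpow_eq_lintegral_meas_lt_mul volume (f := fun z => ‖F z‖ / (2 * K))
    (Filter.Eventually.of_forall fun z => div_nonneg (norm_nonneg _) hK2.le)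
    (hF.norm.div_const _).aemeasurable hp]
  have key : ∫⁻ l in Ioi (0 : ℝ), volume {z | l < ‖F z‖ / (2 * K)} * ENNReal.ofReal (l ^ (p - 1)) ≤
      ∫⁻ l in Ioi (0 : ℝ), ENNReal.ofReal (4 / K ^ 2) *
        (ENNReal.ofReal (l ^ (p - 3)) * N 2 ({y | l < ‖g y‖}.indicator g)) := by
    refine setLIntegral_mono' measurableSet_Ioi fun l hl => ?_
    have hl0 : 0 < l := hl
    have e2 : {z | l < ‖F z‖ / (2 * K)} = {x | 2 * K * l < ‖F x‖} := by
      ext z
      simp only [mem_setOf_eq]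
      rw [lt_div_iff₀ hK2, mul_comm]
    have e3 : l ^ (p - 1) = l ^ (p - 3) * l ^ 2 := by
      rw [← Real.rpow_natCast l 2, ← Real.rpow_add hl0]
      congr 1
      push_cast
      ring
    have p1 : ENNReal.ofReal (4 / (K * l) ^ 2) * ENNReal.ofReal (l ^ (p - 1)) =
        ENNReal.ofReal (4 / K ^ 2) * ENNReal.ofReal (l ^ (p - 3)) := by
      rw [← ENNReal.ofReal_mul (by positivity), ← ENNReal.ofReal_mul (by positivity), e3]
      congr 1
      field_simp
    rw [e2]
    calc _ ≤ ENNReal.ofReal (4 / (K * l) ^ 2) * N 2 ({y | l < ‖g y‖}.indicator g) *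
          ENNReal.ofReal (l ^ (p - 1)) := mul_le_mul_left (h l hl0) _
      _ = ENNReal.ofReal (4 / (K * l) ^ 2) * ENNReal.ofReal (l ^ (p - 1)) *
          N 2 ({y | l < ‖g y‖}.indicator g) := by ring
      _ = _ := by rw [p1, mul_assoc]
  rw [lintegral_const_mul' _ _ ENNReal.ofReal_ne_top] at key
  have b2 := h_m2 p g h2 hg
  have e4 : ENNReal.ofReal ((2 * K) ^ p) * ENNReal.ofReal p * ENNReal.ofReal (4 / K ^ 2) =
      ENNReal.ofReal (2 ^ p * p * 4) * ENNReal.ofReal (K ^ (p - 2)) := by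
    rw [← ENNReal.ofReal_mul (by positivity), ← ENNReal.ofReal_mul (by positivity),
      ← ENNReal.ofReal_mul (by positivity), Real.mul_rpow (by norm_num) hK.le,
      Real.rpow_sub hK, Real.rpow_two]
    congr 1
    field_simp
  calc _ ≤ ENNReal.ofReal ((2 * K) ^ p) * (ENNReal.ofReal p * (ENNReal.ofReal (4 / K ^ 2) *
        (ENNReal.ofReal (1 / (p - 2)) * N p g))) := by
        refine mul_le_mul_right (mul_le_mul_right (key.trans ?_) _) _
        gcongr
    _ = ENNReal.ofReal ((2 * K) ^ p) * ENNReal.ofReal p * ENNReal.ofReal (4 / K ^ 2) *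
        (ENNReal.ofReal (1 / (p - 2)) * N p g) := by ring
    _ = _ := by rw [e4]; ring

end Vale.Agent.P106
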