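import Vale.Agent.P106.Stm2

/-! The fixed time bound for exponents above two. -/

namespace Vale.Agent.P106

open MeasureTheory FourierTransform Set Vale.Agent.P117
open scoped ENNReal

theorem MSup_good {g : ℝ → ℂ} (hg : Good g) {s : Set ℝ} (hs : MeasurableSet s) :
    Good (s.indicator g) := by
  obtain ⟨h1, h2, M, h3⟩ := hg
  exact ⟨h1.indicator hs, h2.indicator hs, M,
    fun y => (norm_indicator_le_norm_self _ _).trans (h3 y)⟩

theorem MSup_sec {F : ℝ → ℝ → ℂ} (h : Measurable fun z : ℝ × ℝ => F z.1 z.2) (τ : ℝ) :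
    Measurable (F τ) := h.comp (measurable_prodMk_left (x := τ))

theorem MSup_meas (h_kmeas : S_kmeas) (τ : ℝ) {g : ℝ → ℂ} (hg : Measurable g) :
    Measurable (U τ g) := MSup_sec (F := fun t => U t g) (h_kmeas.2.2.1 g hg) τ

theorem MSup_cheb {F : ℝ → ℂ} (hF : Measurable F) {r : ℝ} (hr : 0 < r) :
    volume {x | r ≤ ‖F x‖} ≤ ENNReal.ofReal (1 / r ^ 2) * N 2 F := by
  have h0 : ENNReal.ofReal (r ^ 2) ≠ 0 := (ENNReal.ofReal_pos.2 (by positivity)).ne'
  have h1 := meas_ge_le_lintegral_div (μ := volume) (hF.enorm.pow_const (2 : ℝ)).aemeasurable h0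
    ENNReal.ofReal_ne_top
  have h2 : {x | r ≤ ‖F x‖} ⊆ {x | ENNReal.ofReal (r ^ 2) ≤ ‖F x‖ₑ ^ (2 : ℝ)} := fun x hx => by
    show ENNReal.ofReal (r ^ 2) ≤ ‖F x‖ₑ ^ (2 : ℝ)
    rw [← ofReal_norm_eq_enorm, ENNReal.ofReal_rpow_of_nonneg (norm_nonneg _) (by norm_num),
      Real.rpow_two]
    exact ENNReal.ofReal_le_ofReal (pow_le_pow_left₀ hr.le hx 2)
  refine (measure_mono h2).trans (h1.trans (le_of_eq ?_))
  rw [one_div, ENNReal.ofReal_inv_of_pos (by positivity), ENNReal.div_eq_inv_mul]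
  rfl

theorem MSup_add (h_kmeas : S_kmeas) (τ l x : ℝ) {g : ℝ → ℂ}
    (g1 : Good ({y | l < ‖g y‖}.indicator g)) (g2 : Good ({y | ‖g y‖ ≤ l}.indicator g)) :
    U τ g x = U τ ({y | l < ‖g y‖}.indicator g) x + U τ ({y | ‖g y‖ ≤ l}.indicator g) x := by
  unfold U
  rw [← integral_add (h_kmeas.2.2.2.2 _ _ _ g1.2.1) (h_kmeas.2.2.2.2 _ _ _ g2.2.1)]
  refine integral_congr_ae (Filter.Eventually.of_forall fun y => ?_)
  by_cases h : l < ‖g y‖
  · have h1 : y ∈ {y | l < ‖g y‖} := h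
    have h2 : y ∉ {y | ‖g y‖ ≤ l} := not_le.2 h
    simp only [indicator_of_mem h1, indicator_of_notMem h2, mul_zero, add_zero]
  · have h1 : y ∉ {y | l < ‖g y‖} := h
    have h2 : y ∈ {y | ‖g y‖ ≤ l} := not_lt.1 h
    simp only [indicator_of_mem h2, indicator_of_notMem h1, mul_zero, zero_add]

theorem m_sup (h_kmeas : S_kmeas) (h_L2 : S_L2) (hi : M_inf) (hm : M_mar) : M_sup := by
  intro p hp
  obtain ⟨C, hC, h⟩ := hm p hp
  refine ⟨C * ENNReal.ofReal (2 ^ (p - 2)), ENNReal.mul_ne_top hC ENNReal.ofReal_ne_top,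
    fun τ G hG => ?_⟩
  have h0 : 0 < 1 + |τ| := by positivity
  have hK : 0 < 2 * √(1 + |τ|) := by positivity
  have e : (2 * √(1 + |τ|)) ^ (p - 2) = 2 ^ (p - 2) * (1 + |τ|) ^ ((p - 2) / 2) := by
    rw [Real.mul_rpow (by norm_num) (Real.sqrt_nonneg _), Real.sqrt_eq_rpow,
      ← Real.rpow_mul h0.le]
    congr 2
    ring
  have key := h (U τ G) G _ hK (MSup_meas h_kmeas τ hG.1) hG.1 fun l hl => by
    have g1 : Good ({y | l < ‖G y‖}.indicator G) :=
      MSup_good hG (measurableSet_lt measurable_const hG.1.norm)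
    have g2 : Good ({y | ‖G y‖ ≤ l}.indicator G) :=
      MSup_good hG (measurableSet_le hG.1.norm measurable_const)
    have b2 : ∀ y, ‖{y | ‖G y‖ ≤ l}.indicator G y‖ ≤ l := fun y => by
      by_cases hy : y ∈ {y | ‖G y‖ ≤ l}
      · rw [indicator_of_mem hy]; exact hy
      · rw [indicator_of_notMem hy, norm_zero]; exact hl.le
    have sub : {x | 2 * (2 * √(1 + |τ|)) * l < ‖U τ G x‖} ⊆
        {x | 2 * √(1 + |τ|) * l ≤ ‖U τ ({y | l < ‖G y‖}.indicator G) x‖} := fun x hx => by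
      have a1 : 2 * (2 * √(1 + |τ|)) * l < ‖U τ G x‖ := hx
      have a2 := hi τ l x _ hl.le g2.1 b2
      rw [MSup_add h_kmeas τ l x g1 g2] at a1
      have a3 := a1.trans_le (norm_add_le _ _)
      show 2 * √(1 + |τ|) * l ≤ ‖U τ ({y | l < ‖G y‖}.indicator G) x‖
      linarith
    refine (measure_mono sub).trans ((MSup_cheb (MSup_meas h_kmeas τ g1.1) (mul_pos hK hl)).trans
      ((mul_le_mul_right (h_L2 τ _ g1) _).trans (le_of_eq ?_)))
    rw [← mul_assoc, ← ENNReal.ofReal_ofNat 4, ← ENNReal.ofReal_mul (by positivity)]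
    congr 2
    ring
  rwa [e, ENNReal.ofReal_mul (by positivity), ← mul_assoc] at key

end Vale.Agent.P106
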