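import Vale.Agent.P106.Stm2
import Vale.Agent.P106.LT

/-! The time integral of two Schrödinger evolutions, exponents between three and four. -/

namespace Vale.Agent.P106

open MeasureTheory FourierTransform Set Vale.Agent.P117
open scoped ENNReal

theorem MT_min {C0 C1 φ S n X : ℝ≥0∞} {b : ℝ} (hb : 0 ≤ b) (h0 : X ≤ C0 * φ ^ (1 / 2 + b) * n)
    (h1 : X ≤ C1 * S ^ (1 / 2 + b) * n) : X ≤ (C0 + C1) * (φ ^ (1 / 2 : ℝ) * S ^ b) * n := by
  have hh : (0 : ℝ) ≤ 1 / 2 := by norm_num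
  rcases le_total φ S with h | h
  · rw [ENNReal.rpow_add_of_nonneg _ _ hh hb] at h0
    exact h0.trans (mul_le_mul' (mul_le_mul' le_self_add
      (mul_le_mul' le_rfl (ENNReal.rpow_le_rpow h hb))) le_rfl)
  · rw [ENNReal.rpow_add_of_nonneg _ _ hh hb] at h1
    exact h1.trans (mul_le_mul' (mul_le_mul' le_add_self
      (mul_le_mul' (ENNReal.rpow_le_rpow h hh) le_rfl)) le_rfl)

theorem MT_s {c μ t : ℝ} (σ : ℝ) (c0 : 0 ≤ c) (c1 : c ≤ 1) (hμ : 1 ≤ μ) (ht : t ∈ Icc (1 : ℝ) 2) :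
    ENNReal.ofReal (1 + |-(t * μ ^ 2 / 2 + σ)|) ^ c ≤
      ENNReal.ofReal (2 * (μ ^ (2 * c) * (1 + |σ|))) := by
  have μ0 : 0 < μ := by linarith
  have m1 : 1 ≤ μ ^ 2 := one_le_pow₀ hμ
  have s0 := abs_nonneg σ
  have h1 : |-(t * μ ^ 2 / 2 + σ)| ≤ μ ^ 2 + |σ| := by
    rw [abs_neg]
    refine (abs_add_le _ _).trans (add_le_add_left ?_ _)
    rw [abs_of_nonneg (by nlinarith [ht.1])]
    nlinarith [ht.2]
  generalize -(t * μ ^ 2 / 2 + σ) = τ at h1
  have p0 : 0 < 1 + |τ| := by positivity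
  have h2 : 1 + |τ| ≤ 2 * μ ^ 2 * (1 + |σ|) := by nlinarith
  have h3 := Real.rpow_le_rpow p0.le h2 c0
  have a1 : (2 : ℝ) ^ c ≤ 2 := by
    have := Real.rpow_le_rpow_of_exponent_le (one_le_two (α := ℝ)) c1
    rwa [Real.rpow_one] at this
  have a2 : (μ ^ 2) ^ c = μ ^ (2 * c) := by rw [Real.rpow_mul μ0.le, Real.rpow_two]
  have a3 : (1 + |σ|) ^ c ≤ 1 + |σ| := by
    have := Real.rpow_le_rpow_of_exponent_le (show 1 ≤ 1 + |σ| by linarith) c1
    rwa [Real.rpow_one] at this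
  rw [Real.mul_rpow (by positivity) (by positivity), Real.mul_rpow (by positivity) (by positivity),
    a2] at h3
  rw [ENNReal.ofReal_rpow_of_pos p0]
  refine ENNReal.ofReal_le_ofReal (h3.trans ?_)
  rw [mul_assoc]
  gcongr

theorem m_t (hphi : ∀ η p : ℝ, 0 < η → 2 ≤ p → p ≤ 4 → Phi η p) (hs : M_sup) : M_t := by
  intro η p hη h1 hp hp4
  obtain ⟨C, hC, hΦ⟩ := hphi η p hη (by linarith) hp4
  obtain ⟨D, hD, hS⟩ := hs p (by linarith)
  refine ⟨8 * 2 * ((C + D) * (C + D) * (C + C)), by finiteness, fun μ σ G G' hμ hG hG' => ?_⟩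
  obtain ⟨φ, m1, b1, i1, e1⟩ := hΦ G hG
  obtain ⟨ψ, m2, b2, i2, e2⟩ := hΦ G' hG'
  have μ0 : 0 < μ := by linarith
  have hb : 0 ≤ (p - 3) / 2 := by linarith
  have ea : (p - 2) / 2 = 1 / 2 + (p - 3) / 2 := by ring
  have mw : Measurable (wt η) := by
    unfold wt
    fun_prop
  have mF : Measurable fun τ => wt η τ * φ τ + wt η τ * ψ τ := (mw.mul m1).add (mw.mul m2)
  have iF : ∫⁻ τ, (wt η τ * φ τ + wt η τ * ψ τ) ≤ C + C := by
    exact (lintegral_add_left (f := fun τ => wt η τ * φ τ) (mw.mul m1) _).le.trans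
      (add_le_add i1 i2)
  have hN : ENNReal.ofReal ((2 * μ ^ 2 * (1 + |σ|)) ^ (1 + η)) * ENNReal.ofReal (2 / μ ^ 2) ≤
      8 * ENNReal.ofReal (μ ^ (2 * η) * (1 + |σ|) ^ 2) := by
    rw [← ENNReal.ofReal_mul (by positivity), ← ENNReal.ofReal_ofNat 8,
      ← ENNReal.ofReal_mul (by positivity)]
    exact ENNReal.ofReal_le_ofReal (LT_num σ h1 hμ)
  have hE : ENNReal.ofReal (μ ^ (2 * η) * (1 + |σ|) ^ 2) *
      ENNReal.ofReal (2 * (μ ^ (2 * (p - 3)) * (1 + |σ|))) =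
      2 * ENNReal.ofReal (μ ^ (2 * (η + (p - 3))) * (1 + |σ|) ^ 3) := by
    rw [← ENNReal.ofReal_mul (by positivity), ← ENNReal.ofReal_ofNat 2,
      ← ENNReal.ofReal_mul (by positivity), mul_add 2 η, Real.rpow_add μ0]
    exact congrArg _ (by ring)
  have hW := fun t => LT_wt (t := t) σ hη hμ
  have hR := fun t => MT_s (c := p - 3) (t := t) σ (by linarith) (by linarith) hμ
  generalize ENNReal.ofReal ((2 * μ ^ 2 * (1 + |σ|)) ^ (1 + η)) = Q at hN hW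
  generalize ENNReal.ofReal (2 * (μ ^ (2 * (p - 3)) * (1 + |σ|))) = R at hE hR
  have pt : ∀ τ, 1 ≤ Q * wt η τ → ENNReal.ofReal (1 + |τ|) ^ (p - 3) ≤ R →
      N p (U τ G) * N p (U τ G') ≤
      (C + D) * (C + D) * (N p G * N p G') * R * Q * (wt η τ * φ τ + wt η τ * ψ τ) := by
    intro τ hτ hτ'
    have p0 : 0 < 1 + |τ| := by positivity
    have s1 := hS τ G hG
    have s2 := hS τ G' hG'
    have t1 := e1 τ
    have t2 := e2 τ
    rw [← ENNReal.ofReal_rpow_of_pos p0, ea] at s1 s2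
    rw [ea] at t1 t2
    generalize ENNReal.ofReal (1 + |τ|) = S at s1 s2 hτ'
    have eS : S ^ ((p - 3) / 2) * S ^ ((p - 3) / 2) ≤ R := by
      rw [← ENNReal.rpow_add_of_nonneg _ _ hb hb, add_halves]
      exact hτ'
    calc N p (U τ G) * N p (U τ G') ≤
          (C + D) * (φ τ ^ (1 / 2 : ℝ) * S ^ ((p - 3) / 2)) * N p G *
            ((C + D) * (ψ τ ^ (1 / 2 : ℝ) * S ^ ((p - 3) / 2)) * N p G') :=
          mul_le_mul' (MT_min hb t1 s1) (MT_min hb t2 s2)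
      _ = (C + D) * (C + D) * (N p G * N p G') * ((S ^ ((p - 3) / 2) * S ^ ((p - 3) / 2)) *
            (1 * (φ τ ^ (1 / 2 : ℝ) * ψ τ ^ (1 / 2 : ℝ)))) := by
          generalize S ^ ((p - 3) / 2) = A
          generalize φ τ ^ (1 / 2 : ℝ) = B
          generalize ψ τ ^ (1 / 2 : ℝ) = B'
          ring
      _ ≤ (C + D) * (C + D) * (N p G * N p G') * (R * (Q * wt η τ * (φ τ + ψ τ))) :=
          mul_le_mul_right (mul_le_mul' eS (mul_le_mul' hτ
            (LT_pow2 (b1 τ) (b2 τ) (by norm_num) le_rfl))) _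
      _ = _ := by ring
  have mT : Measurable fun t : ℝ => -(t * μ ^ 2 / 2 + σ) := by fun_prop
  refine (setLIntegral_mono' measurableSet_Icc fun t ht => pt _ (hW t ht) (hR t ht)).trans ?_
  refine (setLIntegral_le_lintegral _ _).trans ?_
  refine (lintegral_const_mul _ (mF.comp mT)).le.trans ?_
  refine (congrArg _ (LT_sub _ mF hμ σ)).le.trans ?_
  generalize C + D = E
  calc E * E * (N p G * N p G') * R * Q * (ENNReal.ofReal (2 / μ ^ 2) *
        ∫⁻ τ, (wt η τ * φ τ + wt η τ * ψ τ))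
      ≤ E * E * (N p G * N p G') * R * Q * (ENNReal.ofReal (2 / μ ^ 2) * (C + C)) := by gcongr
    _ = E * E * (C + C) * (N p G * N p G') * R * (Q * ENNReal.ofReal (2 / μ ^ 2)) := by ring
    _ ≤ E * E * (C + C) * (N p G * N p G') * R *
        (8 * ENNReal.ofReal (μ ^ (2 * η) * (1 + |σ|) ^ 2)) := mul_le_mul_right hN _
    _ = 8 * (E * E * (C + C)) * (N p G * N p G') *
        (ENNReal.ofReal (μ ^ (2 * η) * (1 + |σ|) ^ 2) * R) := by ring
    _ = _ := by rw [hE]; ring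

end Vale.Agent.P106
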