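import Vale.Agent.P117.Main2
import Vale.Agent.P106.Fin2
import Vale.Agent.P106.LK
import Vale.Agent.P106.LKn
import Vale.Agent.P106.LMain
import Vale.Agent.P106.LOne
import Vale.Agent.P106.LPh
import Vale.Agent.P106.LSc
import Vale.Agent.P106.LT
import Vale.Agent.P106.LUnd
import Vale.Agent.P106.LX

namespace Vale.Agent.P106

open Vale.Agent.P117

theorem b_main : L_main :=
  l_main a_kmeas s_w1 s_hold2 (l_x s_lprod a_kmeas) (l_k s_young s_knorm a_kmeas) (l_t a_phi)

theorem b_rep (α : ℝ) : V2_Rep α :=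
  V2_rep s_prod s_iprod (s_ften s_prod) l_K (l_one s_one) l_ph α

theorem b_goal : Goal :=
  l_goal (l_und s_young) l_sc
    (l_rep s_prod s_iprod (s_ften s_prod) l_H l_K (l_one s_one) l_ph) b_main

end Vale.Agent.P106
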