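import Vale.Agent.P106.Stm

/-! Statements of the steps for exponents between three and four. -/

namespace Vale.Agent.P106

open MeasureTheory FourierTransform Set Vale.Agent.P117
open scoped ENNReal

def M_k1 : Prop := ∀ τ : ℝ, ∫⁻ z, ‖k τ z‖ₑ ≤ ENNReal.ofReal (2 * √(1 + |τ|))

def M_inf : Prop := ∀ (τ b x : ℝ) (G : ℝ → ℂ), 0 ≤ b → Measurable G → (∀ y, ‖G y‖ ≤ b) →
  ‖U τ G x‖ ≤ 2 * √(1 + |τ|) * b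

def M_mar : Prop := ∀ p : ℝ, 2 < p → ∃ C : ℝ≥0∞, C ≠ ⊤ ∧ ∀ (F g : ℝ → ℂ) (K : ℝ), 0 < K →
  Measurable F → Measurable g →
  (∀ l : ℝ, 0 < l → volume {x | 2 * K * l < ‖F x‖} ≤
    ENNReal.ofReal (4 / (K * l) ^ 2) * N 2 ({y | l < ‖g y‖}.indicator g)) →
  N p F ≤ C * ENNReal.ofReal (K ^ (p - 2)) * N p g

def M_sup : Prop := ∀ p : ℝ, 2 < p → ∃ C : ℝ≥0∞, C ≠ ⊤ ∧ ∀ (τ : ℝ) (G : ℝ → ℂ), Good G →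
  N p (U τ G) ≤ C * ENNReal.ofReal ((1 + |τ|) ^ ((p - 2) / 2)) * N p G

def M_t : Prop := ∀ η p : ℝ, 0 < η → η ≤ 1 → 3 ≤ p → p ≤ 4 → ∃ C : ℝ≥0∞, C ≠ ⊤ ∧
  ∀ (μ σ : ℝ) (G G' : ℝ → ℂ), 1 ≤ μ → Good G → Good G' →
  ∫⁻ t in Icc (1 : ℝ) 2, N p (U (-(t * μ ^ 2 / 2 + σ)) G) * N p (U (-(t * μ ^ 2 / 2 + σ)) G') ≤
    C * ENNReal.ofReal (μ ^ (2 * (η + (p - 3))) * (1 + |σ|) ^ 3) * (N p G * N p G')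

def M_main : Prop := ∀ η p : ℝ, 0 < η → η ≤ 1 → 3 ≤ p → p ≤ 4 → ∃ C : ℝ≥0∞, C ≠ ⊤ ∧
  ∀ (μ : ℝ) (G : Fin 3 → ℝ → ℂ), 1 ≤ μ → (∀ j, Good (G j)) →
  ENNReal.ofReal (μ ^ 8) * ∫⁻ t in Icc (1 : ℝ) 2, ∫⁻ x, (∫⁻ σ, wt 7 σ * FF G μ t σ x) ^ p ≤
    C * ENNReal.ofReal (μ ^ (2 * (η + (p - 3)))) * (N p (G 0) * N p (G 1) * N p (G 2))

end Vale.Agent.P106
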