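import Vale.Agent.P106.Fin2
import Vale.Agent.P106.Stm2

/-! Assembly for all exponents between two and four. -/

namespace Vale.Agent.P106

open MeasureTheory FourierTransform Set Vale.Agent.P117
open scoped ENNReal

def V3_M (p η : ℝ) : Prop := ∃ C : ℝ≥0∞, C ≠ ⊤ ∧
  ∀ (μ : ℝ) (G : Fin 3 → ℝ → ℂ), 1 ≤ μ → (∀ j, Good (G j)) →
  ENNReal.ofReal (μ ^ 8) * ∫⁻ t in Icc (1 : ℝ) 2, ∫⁻ x, (∫⁻ σ, wt 7 σ * FF G μ t σ x) ^ p ≤
    C * ENNReal.ofReal (μ ^ (2 * η)) * (N p (G 0) * N p (G 1) * N p (G 2))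

theorem V3_goal (hu : L_und) (hs : L_sc) (α : ℝ) (hr : V2_Rep α) (η p : ℝ) (hm : V3_M p η)
    (h2 : 2 < p) : ∃ C : ℝ≥0∞, C ≠ ⊤ ∧
    ∀ (μ : ℝ) (g : Fin 3 → SchwartzMap ℝ ℂ) (f : E3 → ℂ),
    (∀ ξ, 𝓕 f ξ = (((1 + 4 * Real.pi ^ 2 * ‖ξ‖ ^ 2) ^ (-(α / 2)) : ℝ) : ℂ) * 𝓕 (tens g) ξ) →
    1 ≤ μ → Box g μ → ∫⁻ t in Icc (1 : ℝ) 2, ∫⁻ x, ‖Uw f t x‖ₑ ^ p ≤
      C * ENNReal.ofReal (μ ^ (2 * η - 4 * α * p)) * (N p (g 0) * N p (g 1) * N p (g 2)) := by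
  have p0 : 0 ≤ p := by linarith
  obtain ⟨A, A1, hA⟩ := hu p (by linarith)
  obtain ⟨B, B1, hB⟩ := hr
  obtain ⟨C, C1, hC⟩ := hm
  have Bp : B ^ p ≠ ⊤ := ENNReal.rpow_ne_top_of_nonneg p0 B1
  refine ⟨B ^ p * C * (A * A * A), ENNReal.mul_ne_top (ENNReal.mul_ne_top Bp C1)
    (ENNReal.mul_ne_top (ENNReal.mul_ne_top A1 A1) A1), fun μ g f hf hμ hb => ?_⟩
  have m0 : 0 < μ := by linarith
  have m3 : 0 < μ ^ 3 := by positivity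
  have m2 : 0 < μ ^ 2 := by positivity
  have k3 : ∀ y : ℝ, 1 < |y| → μ ^ 3 < |0 + μ ^ 3 * y| := fun y hy => by
    rw [zero_add, abs_mul, abs_of_pos m3]
    exact lt_mul_of_one_lt_right m3 hy
  have k2 : ∀ y : ℝ, 1 < |y| → μ ^ 4 + μ ^ 2 * y ∉ Icc (μ ^ 4) (μ ^ 4 + μ ^ 2) := fun y hy hm => by
    have a1 : 0 ≤ μ ^ 2 * y := by linarith [hm.1]
    have a2 : μ ^ 2 * y ≤ μ ^ 2 * 1 := by linarith [hm.2]
    have b1 : 0 ≤ y := (mul_nonneg_iff_of_pos_left m2).1 a1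
    have b2 : y ≤ 1 := le_of_mul_le_mul_left a2 m2
    rw [abs_of_nonneg b1] at hy
    linarith
  obtain ⟨G0, r0, n0⟩ := LGoal_one hs hA (g 0) 0 (μ ^ 3) m3 fun y hy => hb.1 _ (k3 y hy)
  obtain ⟨G1, r1, n1⟩ := LGoal_one hs hA (g 1) 0 (μ ^ 3) m3 fun y hy => hb.2.1 _ (k3 y hy)
  obtain ⟨G2, r2, n2⟩ := LGoal_one hs hA (g 2) (μ ^ 4) (μ ^ 2) m2 fun y hy => hb.2.2 _ (k2 y hy)
  have hG : ∀ j, Good (![G0, G1, G2] j) := fun j => by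
    fin_cases j
    exacts [r0.1, r1.1, r2.1]
  have key := hC μ ![G0, G1, G2] hμ hG
  set D := ENNReal.ofReal ((μ ^ 8) ^ (-(α / 2))) with hD
  have Dp : (D * B) ^ p ≠ ⊤ :=
    ENNReal.rpow_ne_top_of_nonneg p0 (ENNReal.mul_ne_top ENNReal.ofReal_ne_top B1)
  have s0 : D ^ p * ENNReal.ofReal (μ ^ (2 * η)) = ENNReal.ofReal (μ ^ (2 * η - 4 * α * p)) := by
    rw [hD, ENNReal.ofReal_rpow_of_nonneg (by positivity) p0, ← ENNReal.ofReal_mul (by positivity),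
      ← Real.rpow_natCast, ← Real.rpow_mul m0.le, ← Real.rpow_mul m0.le, ← Real.rpow_add m0]
    congr 2
    push_cast
    ring
  have s1 : ∫⁻ t in Icc (1 : ℝ) 2, ∫⁻ x, ‖Uw f t x‖ₑ ^ p ≤ (D * B) ^ p *
      ∫⁻ t in Icc (1 : ℝ) 2, ∫⁻ x, (∫⁻ σ, wt 7 σ * FF ![G0, G1, G2] μ t σ x) ^ p := by
    rw [← lintegral_const_mul' _ _ Dp]
    refine setLIntegral_mono' measurableSet_Icc fun t ht => ?_
    rw [← lintegral_const_mul' _ _ Dp]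
    refine lintegral_mono fun x => ?_
    rw [← ENNReal.mul_rpow_of_nonneg _ _ p0]
    exact ENNReal.rpow_le_rpow (hB μ t g ![G0, G1, G2] f x hf hμ ht hb r0 r1 r2) p0
  have e8 : ENNReal.ofReal (μ ^ 8) =
      ENNReal.ofReal (μ ^ 3) * ENNReal.ofReal (μ ^ 3) * ENNReal.ofReal (μ ^ 2) := by
    rw [← ENNReal.ofReal_mul m3.le, ← ENNReal.ofReal_mul (by positivity)]
    congr 1
    ring
  have s2 : N p G0 * N p G1 * N p G2 ≤
      ENNReal.ofReal (μ ^ 8) * (A * A * A * (N p (g 0) * N p (g 1) * N p (g 2))) := by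
    refine (mul_le_mul' (mul_le_mul' n0 n1) n2).trans (le_of_eq ?_)
    rw [e8]
    ring
  have s3 : ∫⁻ t in Icc (1 : ℝ) 2, ∫⁻ x, (∫⁻ σ, wt 7 σ * FF ![G0, G1, G2] μ t σ x) ^ p ≤
      C * ENNReal.ofReal (μ ^ (2 * η)) * (A * A * A * (N p (g 0) * N p (g 1) * N p (g 2))) := by
    refine (ENNReal.mul_le_mul_iff_right (a := ENNReal.ofReal (μ ^ 8))
      (ENNReal.ofReal_pos.2 (by positivity)).ne' ENNReal.ofReal_ne_top).1 ?_
    refine key.trans ((mul_le_mul_right s2 _).trans (le_of_eq ?_))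
    ring
  refine s1.trans ((mul_le_mul_right s3 _).trans (le_of_eq ?_))
  rw [ENNReal.mul_rpow_of_nonneg _ _ p0, ← s0]
  ring

theorem V3_ex (hm : L_main) (hm' : M_main) (p α : ℝ) (h2 : 2 < p) (h4 : p ≤ 4) (hα : 0 < α)
    (hc : (1 - 3 / p) / 2 < α) : ∃ η, η ≤ 2 * α * p ∧ V3_M p η := by
  have hp0 : 0 < p := by linarith
  rcases le_total p 3 with h3 | h3
  · refine ⟨min α 1, ?_, hm _ p (lt_min hα one_pos) (min_le_right _ _) h2 h3⟩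
    have := min_le_left α 1
    nlinarith
  · have h5 : p - 3 < 2 * α * p := by
      have e : p - 3 = 2 * ((1 - 3 / p) / 2) * p := by field_simp
      rw [e]
      nlinarith
    refine ⟨min (2 * α * p - (p - 3)) 1 + (p - 3), ?_,
      hm' _ p (lt_min (by linarith) one_pos) (min_le_right _ _) h3 h4⟩
    have := min_le_left (2 * α * p - (p - 3)) 1
    linarith

theorem fin3 (h_lprod : S_lprod) (h_iprod : S_iprod) (hu : L_und) (hs : L_sc)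
    (hr : ∀ α, V2_Rep α) (hm : L_main) (hm' : M_main) (p α : ℝ) (h2 : 2 < p) (h4 : p ≤ 4)
    (hα : 0 < α) (hc : (1 - 3 / p) / 2 < α) (hα2 : α ≤ 2) :
    ∃ C : NNReal, ∀ l : ℝ, 1 ≤ l → ∀ g : Fin 3 → SchwartzMap ℝ ℂ,
      (∀ y, l ^ (3 / 4 : ℝ) < |y| → 𝓕 (g 0 : ℝ → ℂ) y = 0) →
      (∀ y, l ^ (3 / 4 : ℝ) < |y| → 𝓕 (g 1 : ℝ → ℂ) y = 0) →
      (∀ y, y ∉ Icc l (l + √l) → 𝓕 (g 2 : ℝ → ℂ) y = 0) →
      (∀ f : SchwartzMap E3 ℂ, J α f = tens g →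
        eLpNorm (fun z : ℝ × E3 => Uw f z.1 z.2) (ENNReal.ofReal p)
          ((volume.restrict (Icc (1 : ℝ) 2)).prod volume) ≤
          C * eLpNorm (J α f) (ENNReal.ofReal p) volume) ∧
      eLpNorm (fun z : ℝ × E3 => Uw (tens g) z.1 z.2) (ENNReal.ofReal p)
        ((volume.restrict (Icc (1 : ℝ) 2)).prod volume) ≤
        C * ENNReal.ofReal (l ^ α) * eLpNorm (tens g) (ENNReal.ofReal p) volume := by
  have hp0 : 0 < p := by linarith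
  obtain ⟨η, hη, hM⟩ := V3_ex hm hm' p α h2 h4 hα hc
  obtain ⟨A, hA, h⟩ := V3_goal hu hs α (hr α) η p hM h2
  obtain ⟨B, hB, h'⟩ := V3_goal hu hs 0 (hr 0) η p hM h2
  have hC : A + B ≠ ⊤ := ENNReal.add_ne_top.2 ⟨hA, hB⟩
  refine ⟨((A + B) ^ (1 / p)).toNNReal, fun l hl g b0 b1 b2 => ?_⟩
  obtain ⟨hμ, hb⟩ := Fin1_box l hl g b0 b1 b2
  have h0 : 0 ≤ l := by linarith
  rw [ENNReal.coe_toNNReal (ENNReal.rpow_ne_top_of_nonneg (by positivity) hC)]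
  refine ⟨fun f hJ => ?_, ?_⟩
  · rw [hJ, ← mul_one ((A + B) ^ (1 / p))]
    refine Fin1_lp p hp0 _ _ _ _ ((h _ g f (Fin2_inv h_iprod α hα2 f g hJ) hμ hb).trans ?_)
    rw [Fin1_ten h_lprod p hp0, ENNReal.one_rpow]
    refine mul_le_mul_left (mul_le_mul' le_self_add ?_) _
    exact ENNReal.ofReal_le_one.2 (Real.rpow_le_one_of_one_le_of_nonpos hμ (by linarith))
  · refine Fin1_lp p hp0 _ _ _ _ ((h' _ g (tens g) (fun ξ => by simp) hμ hb).trans ?_)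
    rw [Fin1_ten h_lprod p hp0]
    refine mul_le_mul_left (mul_le_mul' le_add_self ?_) _
    rw [ENNReal.ofReal_rpow_of_nonneg (by positivity) hp0.le, ← Real.rpow_mul h0,
      ← Real.rpow_mul h0]
    exact ENNReal.ofReal_le_ofReal (Real.rpow_le_rpow_of_exponent_le hl (by linarith))

end Vale.Agent.P106
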