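import Vale.Agent.P106.Main
import Vale.Agent.P106.V3
import Vale.Agent.P106.MK1
import Vale.Agent.P106.MInf
import Vale.Agent.P106.MMar
import Vale.Agent.P106.MSup
import Vale.Agent.P106.MT
import Vale.Agent.P106.MMain

namespace Vale.Agent.P106

open Vale.Agent.P117

theorem b_sup : M_sup := m_sup a_kmeas a_L2 (m_inf a_kmeas (m_k1 s_knorm)) (m_mar s_m2)

theorem b_main2 : M_main :=
  m_main a_kmeas s_w1 s_hold2 (l_x s_lprod a_kmeas) b_sup (m_t a_phi b_sup)

end Vale.Agent.P106
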