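import Vale.Agent.P106.Defs
import Vale.Agent.P117.Stm2

/-! Statements of the steps. -/

namespace Vale.Agent.P106

open MeasureTheory FourierTransform Set Vale.Agent.P117
open scoped ENNReal

noncomputable def ex (θ : ℝ) : ℂ := Complex.exp (2 * Real.pi * Complex.I * (θ : ℂ))

noncomputable def GG (ε v : ℝ) : ℝ := -(v ^ 2 / 4) / (√(1 + ε * v) + 1 + ε * v / 2)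

/-- `G` is the rescaled, demodulated and undamped version of `g` -/
def Rel (g G : ℝ → ℂ) (a r : ℝ) : Prop :=
  Good G ∧ ∀ y : ℝ, (r : ℂ) * 𝓕 g (a + r * y) = Complex.exp (-Real.pi * (y : ℂ) ^ 2) * 𝓕 G y

noncomputable def FF (G : Fin 3 → ℝ → ℂ) (μ t σ : ℝ) (x : E3) : ℝ≥0∞ :=
  ‖U (-(t * μ ^ 2 / 2 + σ)) (G 0) (μ ^ 3 * x 0)‖ₑ * ‖U (-(t * μ ^ 2 / 2 + σ)) (G 1) (μ ^ 3 * x 1)‖ₑ *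
    ‖U (-(t / 2 + σ / μ ^ 2)) (G 2) (μ ^ 2 * x 2 + (t * μ ^ 2 + 2 * σ))‖ₑ

def L_H : Prop := ∃ M : ℝ, ∀ ε ∈ Icc (0 : ℝ) 1, ∀ t ∈ Icc (1 : ℝ) 2, ∃ H : ℝ → ℂ,
  ContDiff ℝ 8 H ∧ (∀ v, v ∉ Icc (-1 : ℝ) 6 → H v = 0) ∧
  (∀ n ≤ 8, ∀ v, ‖iteratedDeriv n H v‖ ≤ M) ∧ ∀ v ∈ Icc (0 : ℝ) 5, H v = ex (t * GG ε v)

def L_K : Prop := ∀ M : ℝ, ∃ C : ℝ, ∀ H : ℝ → ℂ, ContDiff ℝ 8 H →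
  (∀ v, v ∉ Icc (-1 : ℝ) 6 → H v = 0) → (∀ n ≤ 8, ∀ v, ‖iteratedDeriv n H v‖ ≤ M) →
  ∃ K : ℝ → ℂ, Continuous K ∧ Integrable K ∧ (∀ σ, ‖K σ‖ ≤ C * (1 + |σ|) ^ (-(1 + 7) : ℝ)) ∧
    ∀ v, H v = ∫ σ, K σ * ex (σ * v)

def L_und : Prop := ∀ p : ℝ, 1 ≤ p → ∃ C : ℝ≥0∞, C ≠ ⊤ ∧ ∀ g : ℝ → ℂ, Good g →
  (∀ y, 1 < |y| → 𝓕 g y = 0) → ∃ G, Rel g G 0 1 ∧ N p G ≤ C * N p g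

def L_sc : Prop := ∀ (g : SchwartzMap ℝ ℂ) (a r p : ℝ), 0 < r → ∃ h : ℝ → ℂ, Good h ∧
  (∀ y, 𝓕 h y = (r : ℂ) * 𝓕 (g : ℝ → ℂ) (a + r * y)) ∧ N p h = ENNReal.ofReal r * N p g

def L_one : Prop := ∀ (g G : ℝ → ℂ) (a r τ s x : ℝ), 0 < r → Rel g G a r →
  ∫ ξ : ℝ, ex (-(τ * ((ξ - a) / r) ^ 2) + s * ((ξ - a) / r) + x * ξ) * 𝓕 g ξ =
    ex (x * a) * U τ G (r * x + s)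

def L_ph : Prop := ∀ (μ t : ℝ) (ξ : E3), 1 ≤ μ → |ξ 0| ≤ μ ^ 3 → |ξ 1| ≤ μ ^ 3 →
  ξ 2 ∈ Icc (μ ^ 4) (μ ^ 4 + μ ^ 2) → ∀ v : ℝ,
  v = (ξ 0 / μ ^ 3) ^ 2 + (ξ 1 / μ ^ 3) ^ 2 + 2 * ((ξ 2 - μ ^ 4) / μ ^ 2) +
    ((ξ 2 - μ ^ 4) / μ ^ 2) ^ 2 / μ ^ 2 →
  v ∈ Icc (0 : ℝ) 5 ∧ ‖ξ‖ = μ ^ 4 + μ ^ 2 * v / 2 + GG (1 / μ ^ 2) v

/-- the frequency box -/
def Box (g : Fin 3 → SchwartzMap ℝ ℂ) (μ : ℝ) : Prop :=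
  (∀ y, μ ^ 3 < |y| → 𝓕 (g 0 : ℝ → ℂ) y = 0) ∧ (∀ y, μ ^ 3 < |y| → 𝓕 (g 1 : ℝ → ℂ) y = 0) ∧
    ∀ y, y ∉ Icc (μ ^ 4) (μ ^ 4 + μ ^ 2) → 𝓕 (g 2 : ℝ → ℂ) y = 0

def L_rep : Prop := ∃ C : ℝ≥0∞, C ≠ ⊤ ∧ ∀ (μ t : ℝ) (g : Fin 3 → SchwartzMap ℝ ℂ)
  (G : Fin 3 → ℝ → ℂ) (x : E3), 1 ≤ μ → t ∈ Icc (1 : ℝ) 2 → Box g μ → Rel (g 0) (G 0) 0 (μ ^ 3) →
  Rel (g 1) (G 1) 0 (μ ^ 3) → Rel (g 2) (G 2) (μ ^ 4) (μ ^ 2) →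
  ‖Uw (tens g) t x‖ₑ ≤ C * ∫⁻ σ, wt 7 σ * FF G μ t σ x

def L_x : Prop := ∀ (p μ t σ : ℝ) (G : Fin 3 → ℝ → ℂ), 0 < p → 1 ≤ μ → (∀ j, Measurable (G j)) →
  Measurable (fun z : ℝ × E3 => FF G μ t z.1 z.2) ∧
  ENNReal.ofReal (μ ^ 8) * ∫⁻ x, FF G μ t σ x ^ p = N p (U (-(t * μ ^ 2 / 2 + σ)) (G 0)) *
    N p (U (-(t * μ ^ 2 / 2 + σ)) (G 1)) * N p (U (-(t / 2 + σ / μ ^ 2)) (G 2))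

def L_k : Prop := ∀ (p τ : ℝ) (G : ℝ → ℂ), 1 ≤ p → p ≤ 3 → Measurable G →
  N p (U τ G) ≤ ENNReal.ofReal (8 * (1 + |τ|) ^ 3) * N p G

def L_t : Prop := ∀ η p : ℝ, 0 < η → η ≤ 1 → 2 < p → p ≤ 3 → ∃ C : ℝ≥0∞, C ≠ ⊤ ∧
  ∀ (μ σ : ℝ) (G G' : ℝ → ℂ), 1 ≤ μ → Good G → Good G' →
  ∫⁻ t in Icc (1 : ℝ) 2, N p (U (-(t * μ ^ 2 / 2 + σ)) G) * N p (U (-(t * μ ^ 2 / 2 + σ)) G') ≤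
    C * ENNReal.ofReal (μ ^ (2 * η) * (1 + |σ|) ^ 2) * (N p G * N p G')

def L_main : Prop := ∀ η p : ℝ, 0 < η → η ≤ 1 → 2 < p → p ≤ 3 → ∃ C : ℝ≥0∞, C ≠ ⊤ ∧
  ∀ (μ : ℝ) (G : Fin 3 → ℝ → ℂ), 1 ≤ μ → (∀ j, Good (G j)) →
  ENNReal.ofReal (μ ^ 8) * ∫⁻ t in Icc (1 : ℝ) 2, ∫⁻ x, (∫⁻ σ, wt 7 σ * FF G μ t σ x) ^ p ≤
    C * ENNReal.ofReal (μ ^ (2 * η)) * (N p (G 0) * N p (G 1) * N p (G 2))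

def Goal : Prop := ∀ η p : ℝ, 0 < η → η ≤ 1 → 2 < p → p ≤ 3 → ∃ C : ℝ≥0∞, C ≠ ⊤ ∧
  ∀ (μ : ℝ) (g : Fin 3 → SchwartzMap ℝ ℂ), 1 ≤ μ → Box g μ →
  ∫⁻ t in Icc (1 : ℝ) 2, ∫⁻ x, ‖Uw (tens g) t x‖ₑ ^ p ≤
    C * ENNReal.ofReal (μ ^ (2 * η)) * (N p (g 0) * N p (g 1) * N p (g 2))

end Vale.Agent.P106
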